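import Mathlib

/-!
P315, part C: the query algorithm as a pure function, with abstract labels.

Time is cut into the rows `i = 0, 1, …`; positions are natural numbers. The slab `i` of level `j`
consists of the rows `i * M ^ j, …, (i + 1) * M ^ j - 1`. A region `(j, i, a)` is a slab with a
label `a` (in the additive version `a` = number of the interval of length `T j = ℓ * M ^ j` which
contains the entry). A cell `(i, a)` is a row with a label of level `0`.
-/

set_option autoImplicit false

namespace Vale.Agent.P315.C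

/-- Parameters. -/
structure Par where
  /-- branching -/
  M : ℕ
  /-- length of a row -/
  ℓ : ℕ
  /-- mesh: routes use only positions which are multiples of `μ` -/
  μ : ℕ
  /-- all positions are at most `B` -/
  B : ℕ
  /-- price of a shift by one position at a row boundary -/
  sh : ℕ
  /-- a route may go from `p` to `q` in one row -/
  adm : ℕ → ℕ → Prop
  /-- the jitters are in `0, …, J` -/
  J : ℕ
  /-- the scales of the machines are `s < S` -/
  S : ℕ
  /-- the machines start at the index `-H` -/
  H : ℕ
  /-- labels of the children of a region of level `j` with label `a` -/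
  kids : ℕ → ℕ → Finset ℕ
  /-- penalty of the label `a'`, `e` levels below the label `a` of level `j` -/
  pen : ℕ → ℕ → ℕ → ℕ → ℕ
  /-- the cell with label `a` covers the start `p` -/
  cov : ℕ → ℕ → Prop

/-- Length of the slabs of level `j`. -/
def Par.T (P : Par) (j : ℕ) : ℕ := P.ℓ * P.M ^ j

/-- Labels `e` levels below the label `a` of level `j`. -/
def Par.desc (P : Par) : ℕ → ℕ → ℕ → Finset ℕ
  | _, 0, a => {a}
  | j, e + 1, a => (P.kids j a).biUnion fun a' => P.desc (j - 1) e a'

/-! ### Routes and certified costs -/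

/-- Position before row `i` of a route started at `u`; `r i` = (start, end) in row `i`. -/
def prevPos (u : ℕ) (r : ℕ → ℕ × ℕ) : ℕ → ℕ
  | 0 => u
  | i + 1 => (r i).2

/-- Cost of the route `r` through `m` rows from `u` to `v`; `f i p q` is the cost of row `i` from
`p` to `q`; shifts at the row boundaries cost `sh` per position. -/
def rcost (sh m : ℕ) (f : ℕ → ℕ → ℕ → ℕ) (u v : ℕ) (r : ℕ → ℕ × ℕ) : ℕ :=
  ∑ i ∈ Finset.range m, (sh * Nat.dist (prevPos u r i) (r i).1 + f i (r i).1 (r i).2)
    + sh * Nat.dist (prevPos u r m) v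

/-- Admissible routes through `m` rows. -/
def Par.RouteOK (P : Par) (m : ℕ) (r : ℕ → ℕ × ℕ) : Prop :=
  ∀ i < m, P.μ ∣ (r i).1 ∧ P.μ ∣ (r i).2 ∧ (r i).1 ≤ P.B ∧ (r i).2 ≤ P.B ∧
    P.adm (r i).1 (r i).2

/-- Costs of the rows: row, start, end. -/
abbrev Leaf := ℕ → ℕ → ℕ → ℕ

open Classical in
/-- The known costs, if the cells in `R` have been read. -/
noncomputable def known (P : Par) (vis hid : Leaf) (R : Finset (ℕ × ℕ)) : Leaf :=
  fun i p q => if ∃ a, (i, a) ∈ R ∧ P.cov a p then hid i p q else vis i p q

/-- Cheapest admissible route with the row costs `f` through the rows `i0, …, i0 + m - 1`. -/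
noncomputable def best (P : Par) (f : Leaf) (i0 m u v : ℕ) : ℕ :=
  sInf {x | ∃ r, P.RouteOK m r ∧ x = rcost P.sh m (fun i => f (i0 + i)) u v r}

/-- Certified cost through the slab `i` of level `j`, from `u` to `v`, if the cells in `R` have
been read. -/
noncomputable def cval (P : Par) (vis hid : Leaf) (R : Finset (ℕ × ℕ)) (j i u v : ℕ) : ℕ :=
  best P (known P vis hid R) (i * P.M ^ j) (P.M ^ j) u v

/-! ### Machines and random data -/

/-- The machines: `cnt s` machines of scale `s` run in every region whose level is divisible by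
`2 ^ s`. `lane s q κ j a D coin m` is the piece (label, entry, exit) in the unit row `m` of the
lane chosen by the machine number `q` in round `κ` in a region of level `j` with label `a`;
`D κ' m x u v` is the cost of the unit with label `x` in unit row `m` from `u` to `v` in round
`κ'`; only the rounds `κ' ≤ κ` are used. The units are the descendants `2 ^ s` levels below. -/
structure Mach where
  cnt : ℕ → ℕ
  lane : (s q κ j a : ℕ) → (D : ℕ → ℕ → ℕ → ℕ → ℕ → ℕ) → (coin : ℕ → ℕ) → ℕ → ℕ × ℕ × ℕ

/-- Random data: `xi j m` = jitter of the children number `m` of the regions of level `j`;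
`coin j s` = coins of the machines of scale `s` in the regions of level `j`. -/
structure Rnd where
  xi : ℕ → ℕ → ℕ
  coin : ℕ → ℕ → ℕ → ℕ

/-- Sum of the jitters between a region of level `j` and its descendant slab number `m`, `e`
levels below. -/
def Xi (P : Par) (ω : Rnd) (j e m : ℕ) : ℕ :=
  ∑ x ∈ Finset.range e, ω.xi (j - x) (m / P.M ^ (e - 1 - x) % P.M)

/-- Read sets: slab, label, index. -/
abbrev RSet := ℕ → ℕ → ℤ → Finset (ℕ × ℕ)

/-- Index of the unit in row `m` with label `x`, `2 ^ s` levels below the region `(j, i, a)`, in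
round `κ` (round `κ` = own index `κ - H` of the region). -/
def uidx (P : Par) (ω : Rnd) (j a s κ m x : ℕ) : ℤ :=
  (κ : ℤ) - P.H - Xi P ω j (2 ^ s) m - P.pen j (2 ^ s) a x

/-- History of the unit costs in the region `(j, i, a)`, as seen by the machines of scale `s`;
`rd` = read sets of the lower levels. -/
noncomputable def hist (P : Par) (ω : Rnd) (vis hid : Leaf) (rd : ℕ → RSet) (j i a s : ℕ) :
    ℕ → ℕ → ℕ → ℕ → ℕ → ℕ :=
  fun κ m x u v => cval P vis hid
    (rd (j - 2 ^ s) (i * P.M ^ 2 ^ s + m) x (uidx P ω j a s κ m x))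
    (j - 2 ^ s) (i * P.M ^ 2 ^ s + m) u v

/-- The lane of machine `q` of scale `s` in the region `(j, i, a)` in round `κ`. -/
noncomputable def laneOf (P : Par) (mc : Mach) (ω : Rnd) (vis hid : Leaf) (rd : ℕ → RSet)
    (j i a s q κ : ℕ) : ℕ → ℕ × ℕ × ℕ :=
  mc.lane s q κ j a (hist P ω vis hid rd j i a s) (ω.coin j s)

/-- Read sets of level `j ≥ 1` from the read sets of the lower levels: the children at the index
`b - ξ - pen`, and the units on the lanes of the rounds `κ ≤ b + H`, read `2 ^ s` indices
ahead. -/
noncomputable def stepRead (P : Par) (mc : Mach) (ω : Rnd) (vis hid : Leaf) (j : ℕ)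
    (rd : ℕ → RSet) : RSet :=
  fun i a b =>
    ((Finset.range P.M).biUnion fun m => (P.kids j a).biUnion fun a' =>
      rd (j - 1) (i * P.M + m) a' (b - ω.xi j m - P.pen j 1 a a')) ∪
    (((Finset.range P.S).filter fun s => 2 ^ s ∣ j).biUnion fun s =>
      (Finset.range (mc.cnt s)).biUnion fun q => (Finset.range (b + P.H + 1).toNat).biUnion
        fun κ => (Finset.range (P.M ^ 2 ^ s)).biUnion fun m =>
          rd (j - 2 ^ s) (i * P.M ^ 2 ^ s + m) (laneOf P mc ω vis hid rd j i a s q κ m).1
            (uidx P ω j a s κ m (laneOf P mc ω vis hid rd j i a s q κ m).1 + 2 ^ s))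

/-- Read sets of the levels `≤ j`. -/
noncomputable def RD (P : Par) (mc : Mach) (ω : Rnd) (vis hid : Leaf) : ℕ → ℕ → RSet
  | 0 => fun _ i a b => if b < 0 then ∅ else {(i, a)}
  | j + 1 => fun l => if l ≤ j then RD P mc ω vis hid j l
      else stepRead P mc ω vis hid (j + 1) (RD P mc ω vis hid j)

/-- The cells read in the evaluation of the region `(j, i, a)` at the index `b`. -/
noncomputable def rd (P : Par) (mc : Mach) (ω : Rnd) (vis hid : Leaf) (j : ℕ) : RSet :=
  RD P mc ω vis hid j j

/-- The certified cost of the region `(j, i, a)` at the index `b`, from `u` to `v`. -/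
noncomputable def cR (P : Par) (mc : Mach) (ω : Rnd) (vis hid : Leaf) (j i a : ℕ) (b : ℤ)
    (u v : ℕ) : ℕ :=
  cval P vis hid (rd P mc ω vis hid j i a b) j i u v

/-! ### Unfolding -/

theorem RD_of_le (P : Par) (mc : Mach) (ω : Rnd) (vis hid : Leaf) {l j : ℕ} (h : l ≤ j) :
    RD P mc ω vis hid j l = rd P mc ω vis hid l := by
  induction j with
  | zero =>
    obtain rfl : l = 0 := by omega
    rfl
  | succ j ih =>
    rcases Nat.lt_or_ge j l with h' | h'
    · obtain rfl : l = j + 1 := by omega
      rfl
    · rw [← ih h']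
      simp [RD, h']

theorem rd_zero (P : Par) (mc : Mach) (ω : Rnd) (vis hid : Leaf) (i a : ℕ) (b : ℤ) :
    rd P mc ω vis hid 0 i a b = if b < 0 then ∅ else {(i, a)} := rfl

theorem hist_congr (P : Par) (ω : Rnd) (vis hid : Leaf) {rd rd' : ℕ → RSet} {j s : ℕ} (i a : ℕ)
    (h : rd (j - 2 ^ s) = rd' (j - 2 ^ s)) :
    hist P ω vis hid rd j i a s = hist P ω vis hid rd' j i a s := by
  unfold hist; rw [h]

/-- The recursion for the read sets. -/
theorem rd_succ (P : Par) (mc : Mach) (ω : Rnd) (vis hid : Leaf) (j : ℕ) :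
    rd P mc ω vis hid (j + 1) =
      stepRead P mc ω vis hid (j + 1) (rd P mc ω vis hid) := by
  have h1 : rd P mc ω vis hid (j + 1) =
      stepRead P mc ω vis hid (j + 1) (RD P mc ω vis hid j) := by
    unfold rd
    simp [RD]
  rw [h1]
  funext i k b
  unfold stepRead
  have h0 : RD P mc ω vis hid j (j + 1 - 1) = rd P mc ω vis hid (j + 1 - 1) :=
    RD_of_le _ _ _ _ _ (by omega)
  rw [h0]
  congr 1
  refine Finset.biUnion_congr rfl fun s _ => ?_
  have h2 : RD P mc ω vis hid j (j + 1 - 2 ^ s) = rd P mc ω vis hid (j + 1 - 2 ^ s) :=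
    RD_of_le _ _ _ _ _ (by have := Nat.one_le_two_pow (n := s); omega)
  have h3 : ∀ q κ, laneOf P mc ω vis hid (RD P mc ω vis hid j) (j + 1) i k s q κ =
      laneOf P mc ω vis hid (rd P mc ω vis hid) (j + 1) i k s q κ := by
    intro q κ
    unfold laneOf
    rw [hist_congr P ω vis hid i k h2]
  simp only [h2, h3]

/-! ### The additive geometry

Coordinate of a point of the alignment graph on the antidiagonal `t = a + b`: the index `a` in the
first string. -/

/-- The additive geometry: positions are indices of the first string, a path moves by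
`0, …, ℓ` in a row, a shift by one position costs `2`, labels = intervals of length `T j`. -/
def boxPar (M ℓ μ B J S H : ℕ) : Par where
  M := M
  ℓ := ℓ
  μ := μ
  B := B
  sh := 2
  adm := fun p q => p ≤ q ∧ q ≤ p + ℓ
  J := J
  S := S
  H := H
  kids := fun _ a => Finset.Ico (a * M) ((a + 2) * M)
  pen := fun _ _ _ _ => 0
  cov := fun a p => p / ℓ = a

end Vale.Agent.P315.C
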