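import Vale.Agent.P315.C.Alg
import Vale.Agent.P315.H123.PotArea

/-! P315, part C: the area of the read sets `rd` of `C/Alg.lean`. -/

set_option autoImplicit false

namespace Vale.Agent.P315.C.Area

open Finset Vale.Agent.P315.H123

/-- Jitter of the slab `(l, s)` when it is called by the slab `(l + 1, s / M)`. -/
def xs (P : Par) (ω : Rnd) (l s : ℕ) : ℕ := ω.xi (l + 1) (s % P.M)

/-- The two notations for the sum of the jitters agree. -/
theorem Xi_conv (P : Par) (hM : 0 < P.M) (ω : Rnd) {j e m : ℕ} (i : ℕ) (he : e ≤ j) :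
    C.Xi P ω j e m = H123.Xi P.M (xs P ω) e (j - e) (P.M ^ e * i + m) := by
  unfold C.Xi H123.Xi
  rw [← Finset.sum_range_reflect]
  refine Finset.sum_congr rfl fun k hk => ?_
  have hk' := Finset.mem_range.1 hk
  unfold xs
  have h1 : j - (e - 1 - k) = j - e + k + 1 := by omega
  have h2 : e - 1 - (e - 1 - k) = k := by omega
  rw [h1, h2]
  congr 1
  have h3 : P.M ^ e * i + m = P.M ^ k * (P.M * (P.M ^ (e - 1 - k) * i)) + m := by
    have : P.M ^ e = P.M ^ k * (P.M * P.M ^ (e - 1 - k)) := by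
      rw [← pow_succ', ← pow_add]; congr 1; omega
    rw [this]; ring
  rw [h3, Nat.mul_add_div (pow_pos hM k), Nat.mul_add_mod]

/-- Splitting off the top level. -/
theorem Xi_succ (P : Par) (hM : 0 < P.M) (ω : Rnd) (j e m : ℕ) :
    C.Xi P ω (j + 1) (e + 1) m =
      ω.xi (j + 1) (m / P.M ^ e % P.M) + C.Xi P ω j e (m % P.M ^ e) := by
  unfold C.Xi
  rw [Finset.sum_range_succ', add_comm]
  congr 1
  refine Finset.sum_congr rfl fun x hx => ?_
  have hx' := Finset.mem_range.1 hx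
  have h1 : e + 1 - 1 - (x + 1) = e - 1 - x := by omega
  rw [h1, Nat.add_sub_add_right]
  congr 1
  conv_lhs => rw [← Nat.div_add_mod m (P.M ^ e)]
  have h3 : P.M ^ e = P.M ^ (e - 1 - x) * (P.M * P.M ^ x) := by
    rw [← pow_succ', ← pow_add]; congr 1; omega
  have h4 : P.M ^ e * (m / P.M ^ e) + m % P.M ^ e =
      P.M ^ (e - 1 - x) * (P.M * (P.M ^ x * (m / P.M ^ e))) + m % P.M ^ e := by
    nth_rewrite 1 [h3]; ring
  rw [h4, Nat.mul_add_div (pow_pos hM _), Nat.mul_add_mod]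

variable {P : Par} {mc : Mach} {ω : Rnd} {vis hid : Leaf}

theorem rd_mono : ∀ (j i a : ℕ) (b b' : ℤ), b ≤ b' →
    rd P mc ω vis hid j i a b ⊆ rd P mc ω vis hid j i a b' := by
  intro j
  induction j using Nat.strong_induction_on with
  | _ j ih =>
  intro i a b b' hb
  rcases Nat.eq_zero_or_pos j with rfl | hj
  · rw [rd_zero, rd_zero]
    split_ifs with h1 h2
    · exact Finset.Subset.refl _
    · exact Finset.empty_subset _
    · omega
    · exact Finset.Subset.refl _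
  · obtain ⟨j, rfl⟩ : ∃ k, j = k + 1 := ⟨j - 1, by omega⟩
    rw [rd_succ]
    unfold stepRead
    refine Finset.union_subset_union ?_ ?_
    · intro y hy
      obtain ⟨m, hm, hy⟩ := Finset.mem_biUnion.1 hy
      obtain ⟨a', ha', hy⟩ := Finset.mem_biUnion.1 hy
      exact Finset.mem_biUnion.2 ⟨m, hm, Finset.mem_biUnion.2 ⟨a', ha',
        ih (j + 1 - 1) (by omega) _ _ _ _ (by omega) hy⟩⟩
    · intro y hy
      obtain ⟨s, hs, hy⟩ := Finset.mem_biUnion.1 hy
      obtain ⟨q, hq, hy⟩ := Finset.mem_biUnion.1 hy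
      obtain ⟨κ, hκ, hy⟩ := Finset.mem_biUnion.1 hy
      refine Finset.mem_biUnion.2 ⟨s, hs, Finset.mem_biUnion.2 ⟨q, hq, Finset.mem_biUnion.2
        ⟨κ, ?_, hy⟩⟩⟩
      rw [Finset.mem_range] at hκ ⊢
      omega

theorem rd_child {j i a m a' : ℕ} {b : ℤ} (hm : m < P.M) (ha : a' ∈ P.kids (j + 1) a) :
    rd P mc ω vis hid j (i * P.M + m) a' (b - ω.xi (j + 1) m - P.pen (j + 1) 1 a a') ⊆
      rd P mc ω vis hid (j + 1) i a b := by
  intro y hy
  rw [rd_succ]
  unfold stepRead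
  exact Finset.mem_union_left _ (Finset.mem_biUnion.2 ⟨m, Finset.mem_range.2 hm,
    Finset.mem_biUnion.2 ⟨a', ha, hy⟩⟩)

/-- Penalties are subadditive along some chain of labels. -/
def PenOK (P : Par) : Prop := ∀ j e a x, x ∈ P.desc j (e + 1) a →
  ∃ a' ∈ P.kids j a, x ∈ P.desc (j - 1) e a' ∧
    P.pen j 1 a a' + P.pen (j - 1) e a' x ≤ P.pen j (e + 1) a x

/-- The descendants at the baseline index are contained in the read set. -/
theorem rd_desc (hM : 0 < P.M) (hP : PenOK P) : ∀ (e j i a m x : ℕ) (b : ℤ), e ≤ j →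
    m < P.M ^ e → x ∈ P.desc j e a →
    rd P mc ω vis hid (j - e) (i * P.M ^ e + m) x (b - C.Xi P ω j e m - P.pen j e a x) ⊆
      rd P mc ω vis hid j i a b := by
  intro e
  induction e with
  | zero =>
    intro j i a m x b _ hm hx
    have hx' : x = a := by simpa [Par.desc] using hx
    have hm' : m = 0 := by simpa using hm
    subst hx' hm'
    have h1 : i * P.M ^ 0 + 0 = i := by simp
    rw [h1, Nat.sub_zero]
    exact rd_mono _ _ _ _ _ (by omega)
  | succ e ih =>
    intro j i a m x b he hm hx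
    obtain ⟨j, rfl⟩ : ∃ k, j = k + 1 := ⟨j - 1, by omega⟩
    obtain ⟨a', ha', hx', hpen⟩ := hP (j + 1) e a x hx
    rw [Nat.add_sub_cancel] at hx' hpen
    have hm0 : m / P.M ^ e < P.M := by
      rw [Nat.div_lt_iff_lt_mul (pow_pos hM e)]
      rwa [pow_succ'] at hm
    have hm1 : m % P.M ^ e < P.M ^ e := Nat.mod_lt _ (pow_pos hM e)
    have h1 := ih j (i * P.M + m / P.M ^ e) a' (m % P.M ^ e) x
      (b - ω.xi (j + 1) (m / P.M ^ e) - P.pen (j + 1) 1 a a') (by omega) hm1 hx'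
    refine Finset.Subset.trans ?_ (Finset.Subset.trans h1 (rd_child hm0 ha'))
    have h2 : (i * P.M + m / P.M ^ e) * P.M ^ e + m % P.M ^ e = i * P.M ^ (e + 1) + m := by
      have := Nat.div_add_mod m (P.M ^ e)
      have h3 : (i * P.M + m / P.M ^ e) * P.M ^ e =
        i * P.M ^ (e + 1) + P.M ^ e * (m / P.M ^ e) := by ring
      omega
    have h4 : j + 1 - (e + 1) = j - e := by omega
    rw [h2, h4]
    refine rd_mono _ _ _ _ _ ?_
    rw [Xi_succ P hM, Nat.mod_eq_of_lt hm0]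
    have h5 : ((P.pen (j + 1) 1 a a' + P.pen j e a' x : ℕ) : ℤ) ≤
      (P.pen (j + 1) (e + 1) a x : ℕ) := by exact_mod_cast hpen
    push_cast at h5 ⊢
    linarith

/-- Labels of the lanes are descendants. -/
def LaneOK (P : Par) (mc : Mach) : Prop := ∀ s q κ j a D coin m, s < P.S → q < mc.cnt s →
  2 ^ s ∣ j → 0 < j → m < P.M ^ 2 ^ s → (mc.lane s q κ j a D coin m).1 ∈ P.desc j (2 ^ s) a

/-- The heights of the lanes available at level `j`. -/
def sc (P : Par) (j : ℕ) : Finset ℕ :=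
  if j = 0 then ∅ else ((range P.S).filter fun s => 2 ^ s ∣ j).image fun s => 2 ^ s

theorem sc_spec {j h : ℕ} (hh : h ∈ sc P j) :
    ∃ s < P.S, 2 ^ s ∣ j ∧ 0 < j ∧ h = 2 ^ s ∧ Nat.log 2 h = s := by
  unfold sc at hh
  split_ifs at hh with hj
  · exact absurd hh (Finset.notMem_empty _)
  · obtain ⟨s, hs, rfl⟩ := Finset.mem_image.1 hh
    obtain ⟨h1, h2⟩ := Finset.mem_filter.1 hs
    exact ⟨s, Finset.mem_range.1 h1, h2, by omega, rfl, Nat.log_pow (by norm_num) s⟩

theorem mem_sc {j s : ℕ} (hj : 0 < j) (hs : s < P.S) (hd : 2 ^ s ∣ j) : 2 ^ s ∈ sc P j := by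
  unfold sc
  rw [if_neg (by omega)]
  exact Finset.mem_image.2 ⟨s, Finset.mem_filter.2 ⟨Finset.mem_range.2 hs, hd⟩, rfl⟩

/-- The lane number `k` of height `h` among the lanes of the last `h` rounds. -/
noncomputable def ln (P : Par) (mc : Mach) (ω : Rnd) (vis hid : Leaf) (j i a : ℕ) (b : ℤ)
    (h k u : ℕ) : ℕ :=
  (laneOf P mc ω vis hid (rd P mc ω vis hid) j i a (Nat.log 2 h) (k / h)
    ((b + P.H - (k % h : ℕ)).toNat) u).1

/-- **The inclusion needed for the area**: children at the baseline and the lanes of the last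
`2 ^ s` rounds. -/
theorem rd_sub (hM : 0 < P.M) (hP : PenOK P) (hL : LaneOK P mc) (j i a : ℕ) (b : ℤ) :
    rd P mc ω vis hid (j + 1) i a b ⊆
      (range P.M).biUnion (fun m => (P.kids (j + 1) a).biUnion fun a' =>
        rd P mc ω vis hid j (P.M * i + m) a'
          (b - xs P ω j (P.M * i + m) - P.pen (j + 1) 1 a a')) ∪
      (sc P (j + 1)).biUnion fun h => (range (h * mc.cnt (Nat.log 2 h))).biUnion fun k =>
        (range (P.M ^ h)).biUnion fun u =>
          rd P mc ω vis hid (j + 1 - h) (P.M ^ h * i + u)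
            (ln P mc ω vis hid (j + 1) i a b h k u)
            (b - H123.Xi P.M (xs P ω) h (j + 1 - h) (P.M ^ h * i + u) -
              P.pen (j + 1) h a (ln P mc ω vis hid (j + 1) i a b h k u) + h) := by
  intro y hy
  have hxs : ∀ m < P.M, xs P ω j (P.M * i + m) = ω.xi (j + 1) m := by
    intro m hm
    unfold xs
    rw [Nat.mul_add_mod, Nat.mod_eq_of_lt hm]
  rw [rd_succ] at hy
  unfold stepRead at hy
  rcases Finset.mem_union.1 hy with hy | hy
  · refine Finset.mem_union_left _ ?_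
    obtain ⟨m, hm, hy⟩ := Finset.mem_biUnion.1 hy
    obtain ⟨a', ha', hy⟩ := Finset.mem_biUnion.1 hy
    refine Finset.mem_biUnion.2 ⟨m, hm, Finset.mem_biUnion.2 ⟨a', ha', ?_⟩⟩
    rw [hxs m (Finset.mem_range.1 hm), mul_comm P.M i]
    exact hy
  · obtain ⟨s, hs, hy⟩ := Finset.mem_biUnion.1 hy
    obtain ⟨q, hq, hy⟩ := Finset.mem_biUnion.1 hy
    obtain ⟨κ, hκ, hy⟩ := Finset.mem_biUnion.1 hy
    obtain ⟨m, hm, hy⟩ := Finset.mem_biUnion.1 hy
    obtain ⟨hs1, hs2⟩ := Finset.mem_filter.1 hs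
    have hs1 := Finset.mem_range.1 hs1
    have hq := Finset.mem_range.1 hq
    have hκ := Finset.mem_range.1 hκ
    have hm := Finset.mem_range.1 hm
    have hpos : 0 < 2 ^ s := Nat.two_pow_pos s
    set x := (laneOf P mc ω vis hid (rd P mc ω vis hid) (j + 1) i a s q κ m).1 with hx
    have hxd : x ∈ P.desc (j + 1) (2 ^ s) a :=
      hL s q κ (j + 1) a _ _ m hs1 hq hs2 (by omega) hm
    have hle : 2 ^ s ≤ j + 1 := Nat.le_of_dvd (by omega) hs2
    unfold uidx at hy
    by_cases hc : (κ : ℤ) - P.H + ((2 ^ s : ℕ) : ℤ) ≤ b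
    · -- old rounds are in the baseline
      refine Finset.mem_union_left _ ?_
      obtain ⟨e, he⟩ : ∃ e, 2 ^ s = e + 1 := ⟨2 ^ s - 1, by omega⟩
      rw [he] at hxd hy hm hle hc
      obtain ⟨a', ha', hx', hpen⟩ := hP (j + 1) e a x hxd
      rw [Nat.add_sub_cancel] at hx' hpen
      have hm0 : m / P.M ^ e < P.M := by
        rw [Nat.div_lt_iff_lt_mul (pow_pos hM e)]
        rwa [pow_succ'] at hm
      have hm1 : m % P.M ^ e < P.M ^ e := Nat.mod_lt _ (pow_pos hM e)
      refine Finset.mem_biUnion.2 ⟨m / P.M ^ e, Finset.mem_range.2 hm0,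
        Finset.mem_biUnion.2 ⟨a', ha', ?_⟩⟩
      rw [hxs _ hm0, mul_comm P.M i]
      refine rd_desc hM hP e j (i * P.M + m / P.M ^ e) a' (m % P.M ^ e) x _ (by omega) hm1 hx' ?_
      have h2 : (i * P.M + m / P.M ^ e) * P.M ^ e + m % P.M ^ e = i * P.M ^ (e + 1) + m := by
        have := Nat.div_add_mod m (P.M ^ e)
        have h3 : (i * P.M + m / P.M ^ e) * P.M ^ e =
          i * P.M ^ (e + 1) + P.M ^ e * (m / P.M ^ e) := by ring
        omega
      have h4 : j + 1 - (e + 1) = j - e := by omega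
      rw [h2]
      rw [h4] at hy
      refine rd_mono _ _ _ _ _ ?_ hy
      rw [Xi_succ P hM, Nat.mod_eq_of_lt hm0]
      have h5 : ((P.pen (j + 1) 1 a a' + P.pen j e a' x : ℕ) : ℤ) ≤
        (P.pen (j + 1) (e + 1) a x : ℕ) := by exact_mod_cast hpen
      have h6 : (2 : ℤ) ^ s = ((e + 1 : ℕ) : ℤ) := by exact_mod_cast he
      push_cast at h5 h6 hc ⊢
      linarith
    · -- the last rounds
      refine Finset.mem_union_right _ ?_
      have hc' : b < (κ : ℤ) - P.H + ((2 ^ s : ℕ) : ℤ) := not_le.1 hc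
      obtain ⟨d, hd⟩ : ∃ d : ℕ, (d : ℤ) = b + P.H - κ :=
        ⟨(b + P.H - κ).toNat, by omega⟩
      have hd2 : d < 2 ^ s := by omega
      have hlog : Nat.log 2 (2 ^ s) = s := Nat.log_pow (by norm_num) s
      refine Finset.mem_biUnion.2 ⟨2 ^ s, mem_sc (by omega) hs1 hs2, Finset.mem_biUnion.2
        ⟨2 ^ s * q + d, ?_, Finset.mem_biUnion.2 ⟨m, Finset.mem_range.2 hm, ?_⟩⟩⟩
      · rw [Finset.mem_range, hlog]
        calc 2 ^ s * q + d < 2 ^ s * q + 2 ^ s := by omega
          _ = 2 ^ s * (q + 1) := by ring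
          _ ≤ 2 ^ s * mc.cnt s := Nat.mul_le_mul_left _ hq
      · have h1 : (2 ^ s * q + d) / 2 ^ s = q := by
          rw [Nat.mul_add_div hpos, Nat.div_eq_of_lt hd2, add_zero]
        have h2 : (2 ^ s * q + d) % 2 ^ s = d := by
          rw [Nat.mul_add_mod, Nat.mod_eq_of_lt hd2]
        have h3 : (b + P.H - (d : ℤ)).toNat = κ := by omega
        have h4 : ln P mc ω vis hid (j + 1) i a b (2 ^ s) (2 ^ s * q + d) m = x := by
          unfold ln
          rw [h1, h2, hlog, h3]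
        rw [h4, ← Xi_conv P hM ω i hle, mul_comm (P.M ^ 2 ^ s) i]
        refine rd_mono _ _ _ _ _ ?_ hy
        have h6 : (2 : ℤ) ^ s = ((2 ^ s : ℕ) : ℤ) := by push_cast; rfl
        rw [h6]
        omega

theorem ln_desc (hL : LaneOK P mc) {j i a h k u : ℕ} {b : ℤ} (hh : h ∈ sc P j)
    (hk : k < h * mc.cnt (Nat.log 2 h)) (hu : u < P.M ^ h) :
    ln P mc ω vis hid j i a b h k u ∈ P.desc j h a := by
  obtain ⟨s, hs, hd, hj, rfl, hlog⟩ := sc_spec hh
  unfold ln
  rw [hlog] at hk ⊢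
  refine hL s _ _ j a _ _ u hs ?_ hd hj hu
  rw [Nat.div_lt_iff_lt_mul (Nat.two_pow_pos s), mul_comm]
  exact hk

/-! ### The additive geometry -/

theorem mem_desc_box {M ℓ μ B J S H : ℕ} (hM : 2 ≤ M) : ∀ (e j a x : ℕ),
    x ∈ (boxPar M ℓ μ B J S H).desc j e a → a * M ^ e ≤ x ∧ x + 3 ≤ (a + 3) * M ^ e := by
  intro e
  induction e with
  | zero =>
    intro j a x hx
    have : x = a := by simpa [Par.desc] using hx
    subst this
    simp
  | succ e ih =>
    intro j a x hx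
    simp only [Par.desc, Finset.mem_biUnion] at hx
    obtain ⟨a', ha', hx⟩ := hx
    have ha'' : a * M ≤ a' ∧ a' < (a + 2) * M := by
      simpa [boxPar] using ha'
    obtain ⟨h1, h2⟩ := ih (j - 1) a' x hx
    constructor
    · calc a * M ^ (e + 1) = a * M * M ^ e := by ring
        _ ≤ a' * M ^ e := Nat.mul_le_mul_right _ ha''.1
        _ ≤ x := h1
    · have h3 : a' + 3 ≤ (a + 3) * M := by nlinarith [ha''.2]
      calc x + 3 ≤ (a' + 3) * M ^ e := h2
        _ ≤ (a + 3) * M * M ^ e := Nat.mul_le_mul_right _ h3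
        _ = (a + 3) * M ^ (e + 1) := by ring

theorem penOK_box {M ℓ μ B J S H : ℕ} : PenOK (boxPar M ℓ μ B J S H) := by
  intro j e a x hx
  simp only [Par.desc, Finset.mem_biUnion] at hx
  obtain ⟨a', ha', hx⟩ := hx
  exact ⟨a', ha', hx, le_rfl⟩

/-- **Area in the additive geometry**, pathwise in the jitters. -/
theorem card_rd_box {M ℓ μ B J S H : ℕ} (hM : 2 ≤ M) {mc : Mach} {ω : Rnd} {vis hid : Leaf}
    (hL : LaneOK (boxPar M ℓ μ B J S H) mc) {lam C : ℝ} (hlam : 0 ≤ lam) (hC : 1 ≤ C)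
    (hCb : 1 + ∑ s ∈ range S, 3 * ((2 ^ s * mc.cnt s : ℕ) : ℝ) * Real.exp (lam * (2 ^ s : ℕ)) /
      (M : ℝ) ^ 2 ^ s ≤ C) (n i a : ℕ) (b : ℤ) :
    ((rd (boxPar M ℓ μ B J S H) mc ω vis hid n i a b).card : ℝ) ≤
      3 * (M : ℝ) ^ n * C ^ n * Real.exp (lam * b) *
        Wt M (xs (boxPar M ℓ μ B J S H) ω) lam n i := by
  classical
  set Pr := boxPar M ℓ μ B J S H with hPr
  have hPM : Pr.M = M := rfl
  have hPS : Pr.S = S := rfl
  have hM0 : 0 < M := by omega
  have hMR : (0 : ℝ) < M := by exact_mod_cast hM0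
  -- points, profiles
  set Pts : Finset ℕ := Ico (a * M ^ n) ((a + 3) * M ^ n) with hPts
  set prof : ℕ → ℕ → ℕ → ℝ := fun j l p => if l * M ^ j ≤ p ∧ p < (l + 3) * M ^ j then 1 else 0
    with hprof
  set ok : ℕ → ℕ → Prop := fun j l => j ≤ n ∧ a * M ^ (n - j) ≤ l ∧ l + 3 ≤ (a + 3) * M ^ (n - j)
    with hok
  set SS : ℕ → ℕ → ℕ → ℤ → Finset (ℕ × ℕ) := fun j t l b' => rd Pr mc ω vis hid j t l b' with hSS
  have hzone : ∀ j l, ok j l → ∀ p, l * M ^ j ≤ p → p < (l + 3) * M ^ j → p ∈ Pts := by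
    rintro j l ⟨hj, h1, h2⟩ p hp1 hp2
    have h3 : M ^ n = M ^ (n - j) * M ^ j := by rw [← pow_add]; congr 1; omega
    rw [hPts, Finset.mem_Ico]
    constructor
    · calc a * M ^ n = a * M ^ (n - j) * M ^ j := by rw [h3]; ring
        _ ≤ l * M ^ j := Nat.mul_le_mul_right _ h1
        _ ≤ p := hp1
    · calc p < (l + 3) * M ^ j := hp2
        _ ≤ (a + 3) * M ^ (n - j) * M ^ j := Nat.mul_le_mul_right _ h2
        _ = (a + 3) * M ^ n := by rw [h3]; ring
  have hsum : ∀ j l, ok j l → ∑ p ∈ Pts, prof j l p = 3 * (M : ℝ) ^ j := by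
    intro j l hl
    have h1 : ∑ p ∈ Pts, prof j l p =
        ∑ p ∈ Pts.filter (fun p => l * M ^ j ≤ p ∧ p < (l + 3) * M ^ j), (1 : ℝ) := by
      rw [Finset.sum_filter]
    have h2 : Pts.filter (fun p => l * M ^ j ≤ p ∧ p < (l + 3) * M ^ j) =
        Ico (l * M ^ j) ((l + 3) * M ^ j) := by
      ext p
      constructor
      · intro h
        exact Finset.mem_Ico.2 (Finset.mem_filter.1 h).2
      · intro h
        have h' := Finset.mem_Ico.1 h
        exact Finset.mem_filter.2 ⟨hzone j l hl p h'.1 h'.2, h'⟩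
    rw [h1, h2, Finset.sum_const, Nat.card_Ico, nsmul_eq_mul, mul_one]
    have h3 : (l + 3) * M ^ j - l * M ^ j = 3 * M ^ j := by
      have : (l + 3) * M ^ j = l * M ^ j + 3 * M ^ j := by ring
      omega
    rw [h3]; push_cast; ring
  have hokd : ∀ j h l x, ok j l → h ≤ j → x ∈ Pr.desc j h l → ok (j - h) x := by
    rintro j h l x ⟨hj, h1, h2⟩ hh hx
    obtain ⟨h3, h4⟩ := mem_desc_box hM h j l x hx
    have h5 : n - (j - h) = (n - j) + h := by omega
    refine ⟨by omega, ?_, ?_⟩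
    · rw [h5, pow_add]
      calc a * (M ^ (n - j) * M ^ h) = a * M ^ (n - j) * M ^ h := by ring
        _ ≤ l * M ^ h := Nat.mul_le_mul_right _ h1
        _ ≤ x := h3
    · rw [h5, pow_add]
      calc x + 3 ≤ (l + 3) * M ^ h := h4
        _ ≤ (a + 3) * M ^ (n - j) * M ^ h := Nat.mul_le_mul_right _ h2
        _ = (a + 3) * (M ^ (n - j) * M ^ h) := by ring
  have key := pot_area (γ := ℕ × ℕ) (Lb := ℕ) (Pt := ℕ) Pts hM0 (lam := lam) (C := C)
    (K := 1 / 3) (N := 3) hlam hC (by norm_num) (by norm_num) (ξ := xs Pr ω) (S := SS)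
    (fun _ => (1 : ℝ)) (fun _ => zero_le_one) ok (prof := prof) (χ := prof) (sc := sc Pr)
    (fun j h hh => by
      obtain ⟨s, _, hd, hj, rfl, _⟩ := sc_spec hh
      exact ⟨Nat.one_le_two_pow, Nat.le_of_dvd hj hd⟩)
    (Lam := fun h => h * mc.cnt (Nat.log 2 h))
    (ρ := fun h => ((h * mc.cnt (Nat.log 2 h) : ℕ) : ℝ) / (M : ℝ) ^ h)
    (fun j t l b' b'' hb => rd_mono j t l b' b'' hb)
    (fun t l b' hl => by
      rw [hsum 0 l hl, pow_zero, Finset.sum_const, nsmul_eq_mul, mul_one]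
      have h1 : (SS 0 t l b').card ≤ 1 := by
        rw [hSS]
        simp only [rd_zero]
        split_ifs <;> simp
      have h2 : ((SS 0 t l b').card : ℝ) ≤ 1 := by exact_mod_cast h1
      linarith)
    (fun t l b' hb => by rw [hSS]; simp only [rd_zero, if_pos hb])
    (fun j l _ p _ => by
      rw [hprof]
      refine ⟨?_, le_rfl⟩
      simp only
      split_ifs <;> norm_num)
    (fun j p _ T _ => by
      have h1 : (T.filter fun l => prof j l p ≠ 0) ⊆ Icc (p / M ^ j - 2) (p / M ^ j) := by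
        intro l hl
        obtain ⟨_, hl⟩ := Finset.mem_filter.1 hl
        rw [hprof] at hl
        simp only [ne_eq, ite_eq_right_iff, one_ne_zero, imp_false, not_not] at hl
        have hp0 : 0 < M ^ j := pow_pos hM0 j
        rw [Finset.mem_Icc]
        constructor
        · have h3 : p / M ^ j < l + 3 := by
            rw [Nat.div_lt_iff_lt_mul hp0]; exact hl.2
          omega
        · rw [Nat.le_div_iff_mul_le hp0]; exact hl.1
      have h2 := Finset.card_le_card h1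
      rw [Nat.card_Icc] at h2
      have h3 : (T.filter fun l => prof j l p ≠ 0).card ≤ 3 := by omega
      exact_mod_cast h3)
    (fun j t l b' hl => by
      refine ⟨fun _ => Pr.kids (j + 1) l, fun _ l' => Pr.pen (j + 1) 1 l l',
        fun h k u => ln Pr mc ω vis hid (j + 1) t l b' h k u,
        fun h k u => Pr.pen (j + 1) h l (ln Pr mc ω vis hid (j + 1) t l b' h k u), ?_, ?_, ?_⟩
      · exact rd_sub (P := Pr) hM0 penOK_box hL j t l b'
      · intro m _ l' hl'
        have hd : l' ∈ Pr.desc (j + 1) 1 l := by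
          simp only [Par.desc, Finset.mem_biUnion, Finset.mem_singleton]
          exact ⟨l', hl', rfl⟩
        have hok' := hokd (j + 1) 1 l l' hl (by omega) hd
        rw [Nat.add_sub_cancel] at hok'
        refine ⟨hok', fun p _ => ?_⟩
        have hpen : Pr.pen (j + 1) 1 l l' = 0 := rfl
        show Real.exp (- lam * ((Pr.pen (j + 1) 1 l l' : ℕ) : ℝ)) * prof j l' p ≤ prof (j + 1) l p
        rw [hpen, Nat.cast_zero, mul_zero, Real.exp_zero, one_mul]
        obtain ⟨h3, h4⟩ := mem_desc_box hM 1 (j + 1) l l' hd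
        rw [pow_one] at h3 h4
        simp only [hprof]
        split_ifs with h5 h6
        · exact le_rfl
        · exfalso
          apply h6
          constructor
          · calc l * M ^ (j + 1) = l * M * M ^ j := by ring
              _ ≤ l' * M ^ j := Nat.mul_le_mul_right _ h3
              _ ≤ p := h5.1
          · calc p < (l' + 3) * M ^ j := h5.2
              _ ≤ (l + 3) * M * M ^ j := Nat.mul_le_mul_right _ h4
              _ = (l + 3) * M ^ (j + 1) := by ring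
        · norm_num
        · exact le_rfl
      · intro h hh u hu
        have hh' := hh
        obtain ⟨s, hs, hd, hj, hs', hlog⟩ := sc_spec hh'
        have hle : h ≤ j + 1 := by rw [hs']; exact Nat.le_of_dvd hj hd
        have hoks : ∀ k < h * mc.cnt (Nat.log 2 h),
            ok (j + 1 - h) (ln Pr mc ω vis hid (j + 1) t l b' h k u) := by
          intro k hk
          exact hokd (j + 1) h l _ hl hle (ln_desc hL hh hk hu)
        refine ⟨hoks, ?_⟩
        have h5 : ∀ k ∈ range (h * mc.cnt (Nat.log 2 h)),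
            Real.exp (- lam * ((Pr.pen (j + 1) h l
              (ln Pr mc ω vis hid (j + 1) t l b' h k u) : ℕ) : ℝ)) *
              ∑ p ∈ Pts, prof (j + 1 - h) (ln Pr mc ω vis hid (j + 1) t l b' h k u) p =
            3 * (M : ℝ) ^ (j + 1 - h) := by
          intro k hk
          have hpen : Pr.pen (j + 1) h l (ln Pr mc ω vis hid (j + 1) t l b' h k u) = 0 := rfl
          rw [hpen, Nat.cast_zero, mul_zero, Real.exp_zero, one_mul]
          exact hsum _ _ (hoks k (Finset.mem_range.1 hk))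
        rw [Finset.sum_congr rfl h5, hsum (j + 1) l hl, Finset.sum_const, Finset.card_range,
          nsmul_eq_mul]
        have h6 : (M : ℝ) ^ (j + 1) = (M : ℝ) ^ (j + 1 - h) * (M : ℝ) ^ h := by
          rw [← pow_add]; congr 1; omega
        rw [h6]
        have h7 : (M : ℝ) ^ h ≠ 0 := (pow_pos hMR h).ne'
        refine le_of_eq ?_
        field_simp)
    (fun j => by
      refine le_trans ?_ hCb
      have h1 : ∑ h ∈ sc Pr (j + 1), 3 * (((h * mc.cnt (Nat.log 2 h) : ℕ) : ℝ) / (M : ℝ) ^ h) *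
          Real.exp (lam * (h : ℝ)) ≤
          ∑ s ∈ range S, 3 * (((2 ^ s * mc.cnt (Nat.log 2 (2 ^ s)) : ℕ) : ℝ) / (M : ℝ) ^ 2 ^ s) *
            Real.exp (lam * ((2 ^ s : ℕ) : ℝ)) := by
        unfold sc
        rw [if_neg (by omega), Finset.sum_image]
        · refine Finset.sum_le_sum_of_subset_of_nonneg (Finset.filter_subset _ _) ?_
          intro s _ _
          positivity
        · intro s _ s' _ hss
          exact Nat.pow_right_injective le_rfl hss
      have h2 : ∑ s ∈ range S, 3 * (((2 ^ s * mc.cnt (Nat.log 2 (2 ^ s)) : ℕ) : ℝ) /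
            (M : ℝ) ^ 2 ^ s) * Real.exp (lam * ((2 ^ s : ℕ) : ℝ)) =
          ∑ s ∈ range S, 3 * ((2 ^ s * mc.cnt s : ℕ) : ℝ) * Real.exp (lam * (2 ^ s : ℕ)) /
            (M : ℝ) ^ 2 ^ s := by
        refine Finset.sum_congr rfl fun s _ => ?_
        rw [Nat.log_pow (by norm_num) s]
        ring
      linarith)
    n i {a} (fun _ => b) (fun p => Real.exp (lam * b) * prof n a p)
    (fun l hl => by
      rw [Finset.mem_singleton] at hl
      subst hl
      exact ⟨le_rfl, by simp, by simp⟩)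
    (fun l hl p _ => by
      rw [Finset.mem_singleton] at hl
      subst hl
      exact le_rfl)
    (fun p _ => by
      simp only [hprof]
      split_ifs
      · simp only [mul_one]; exact (Real.exp_pos _).le
      · simp)
  rw [Finset.singleton_biUnion, Finset.sum_const, nsmul_eq_mul, mul_one, ← Finset.mul_sum,
    hsum n a ⟨le_rfl, by simp, by simp⟩] at key
  refine key.trans (le_of_eq ?_)
  ring

/-- **Mean area in the additive geometry**: the jitters of the levels `1, …, n` are the entries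
`c k d` (`k < n`: level `k + 1`, `d < M`: number of the child) of a uniform table `x`, entries of
different levels being different coordinates; everything else in `ω x` is arbitrary. -/
theorem mean_card_rd_box {Tb : Type*} [Fintype Tb] [DecidableEq Tb] {M ℓ μ B J S H : ℕ}
    (hM : 2 ≤ M) {mc : Mach} {vis hid : Leaf} (hL : LaneOK (boxPar M ℓ μ B J S H) mc)
    {lam C : ℝ} (hlam : 0 ≤ lam) (hC : 1 ≤ C)
    (hCb : 1 + ∑ s ∈ range S, 3 * ((2 ^ s * mc.cnt s : ℕ) : ℝ) * Real.exp (lam * (2 ^ s : ℕ)) /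
      (M : ℝ) ^ 2 ^ s ≤ C) (n i a : ℕ) (b : ℤ)
    (ω : (Tb → Fin (J + 1)) → Rnd) (c : ℕ → ℕ → Tb)
    (hω : ∀ x, ∀ k < n, ∀ d < M, (ω x).xi (k + 1) d = (x (c k d) : ℕ))
    (hc : ∀ k < n, ∀ k' < n, ∀ d < M, ∀ d' < M, c k d = c k' d' → k = k') :
    (∑ x : Tb → Fin (J + 1),
        ((rd (boxPar M ℓ μ B J S H) mc (ω x) vis hid n i a b).card : ℝ)) /
          (Fintype.card (Tb → Fin (J + 1)) : ℝ) ≤
      3 * (M : ℝ) ^ n * (M : ℝ) ^ n * C ^ n *
        Real.exp (lam * b + n * (- lam * J / 2 + lam ^ 2 * J ^ 2 / 8)) := by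
  have hM0 : 0 < M := by omega
  have hMR : (0 : ℝ) < M := by exact_mod_cast hM0
  have hC0 : 0 < C := by linarith
  have h1 : ∀ x ∈ (Finset.univ : Finset (Tb → Fin (J + 1))),
      ((rd (boxPar M ℓ μ B J S H) mc (ω x) vis hid n i a b).card : ℝ) ≤
      (3 * (M : ℝ) ^ n * C ^ n * Real.exp (lam * b)) *
        Wt M (xs (boxPar M ℓ μ B J S H) (ω x)) lam n i := fun x _ =>
    card_rd_box hM hL hlam hC hCb n i a b
  have hN : (0 : ℝ) ≤ (Fintype.card (Tb → Fin (J + 1)) : ℝ) := Nat.cast_nonneg _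
  refine (div_le_div_of_nonneg_right (Finset.sum_le_sum h1) hN).trans ?_
  rw [← Finset.mul_sum, mul_div_assoc]
  have h2 := mean_Wt (M := M) J n i lam (fun x => xs (boxPar M ℓ μ B J S H) (ω x))
    (fun r k => c k ((M ^ n * i + r) / M ^ k % M))
    (fun x r _ k hk => hω x k hk _ (Nat.mod_lt _ hM0))
    (fun r _ k hk k' hk' hkk => hc k (by simpa using hk) k' (by simpa using hk') _
      (Nat.mod_lt _ hM0) _ (Nat.mod_lt _ hM0) hkk)
  have h3 : 0 ≤ 3 * (M : ℝ) ^ n * C ^ n * Real.exp (lam * b) := by positivity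
  refine (mul_le_mul_of_nonneg_left h2 h3).trans (le_of_eq ?_)
  rw [Real.exp_add]
  ring

/-- The same over a product space: `y` = all other coins. -/
theorem mean_card_rd_box' {Tb Y : Type*} [Fintype Tb] [DecidableEq Tb] [Fintype Y]
    {M ℓ μ B J S H : ℕ}
    (hM : 2 ≤ M) {mc : Mach} {vis hid : Leaf} (hL : LaneOK (boxPar M ℓ μ B J S H) mc)
    {lam C : ℝ} (hlam : 0 ≤ lam) (hC : 1 ≤ C)
    (hCb : 1 + ∑ s ∈ range S, 3 * ((2 ^ s * mc.cnt s : ℕ) : ℝ) * Real.exp (lam * (2 ^ s : ℕ)) /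
      (M : ℝ) ^ 2 ^ s ≤ C) (n i a : ℕ) (b : ℤ)
    (ω : (Tb → Fin (J + 1)) × Y → Rnd) (c : ℕ → ℕ → Tb)
    (hω : ∀ x, ∀ k < n, ∀ d < M, (ω x).xi (k + 1) d = (x.1 (c k d) : ℕ))
    (hc : ∀ k < n, ∀ k' < n, ∀ d < M, ∀ d' < M, c k d = c k' d' → k = k') :
    ∑ x : (Tb → Fin (J + 1)) × Y,
        ((rd (boxPar M ℓ μ B J S H) mc (ω x) vis hid n i a b).card : ℝ) ≤
      (Fintype.card ((Tb → Fin (J + 1)) × Y) : ℝ) * (3 * (M : ℝ) ^ n * (M : ℝ) ^ n * C ^ n *
        Real.exp (lam * b + n * (- lam * J / 2 + lam ^ 2 * J ^ 2 / 8))) := by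
  rw [Fintype.sum_prod_type_right, Fintype.card_prod]
  set E : ℝ := 3 * (M : ℝ) ^ n * (M : ℝ) ^ n * C ^ n *
        Real.exp (lam * b + n * (- lam * J / 2 + lam ^ 2 * J ^ 2 / 8)) with hE
  have h1 : ∀ y ∈ (Finset.univ : Finset Y), ∑ x : Tb → Fin (J + 1),
      ((rd (boxPar M ℓ μ B J S H) mc (ω (x, y)) vis hid n i a b).card : ℝ) ≤
      (Fintype.card (Tb → Fin (J + 1)) : ℝ) * E := by
    intro y _
    have h2 := mean_card_rd_box hM (vis := vis) (hid := hid) hL hlam hC hCb n i a b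
      (fun x => ω (x, y)) c (fun x k hk d hd => hω (x, y) k hk d hd) hc
    have h3 : (0 : ℝ) < (Fintype.card (Tb → Fin (J + 1)) : ℝ) := by
      have : 0 < Fintype.card (Tb → Fin (J + 1)) := Fintype.card_pos
      exact_mod_cast this
    rw [div_le_iff₀ h3] at h2
    linarith
  refine (Finset.sum_le_sum h1).trans (le_of_eq ?_)
  rw [Finset.sum_const, Finset.card_univ, nsmul_eq_mul]
  push_cast
  ring

end Vale.Agent.P315.C.Area
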