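import Vale.Agent.P315.H659.Loc
import Vale.Agent.P315.H808.AlgAlong

/-!
P315, part C: instances of the query problem, requirements on the machines, and the statement of
the query theorem (one pass, static cut at the root index `N`).

FROZEN. Only two averages over the seeds are stated: the certified cost of the root and the number of
cells read. That the certified cost is never smaller than the true cost is part of the string side.
-/

set_option autoImplicit false

namespace Vale.Agent.P315.C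

open Vale.Agent.P315.H731 (av)
open Vale.Agent.P315.H659 (Ix toRnd)
open Vale.Agent.P315.H808 (Chain)

/-- An instance with `M ^ n` rows. `C` = comparison path with labels, costs `C.d` (true cost plus
slack) and weights `C.w`; `η` = loss of the lower bound, per unit of weight. The label of a slab is
the number of the interval of length `T j` which contains the entry of the comparison path. -/
structure Inst (P : Par) (vis hid : Leaf) (n : ℕ) (η : ℝ) (C : Chain P vis hid n) : Prop where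
  pt : ∃ p, P.μ ∣ p ∧ p ≤ P.B ∧ P.adm p p
  hid_le : ∀ i p q, P.adm p q → hid i p q ≤ vis i p q
  vis_le : ∀ i p q, P.adm p q → vis i p q ≤ P.ℓ
  adm : ∀ i, i < P.M ^ n → P.adm (C.pos i) (C.pos (i + 1))
  pos_le : ∀ i, i ≤ P.M ^ n → C.pos i ≤ P.B
  lab_eq : ∀ j i, j ≤ n → i < P.M ^ (n - j) → C.lab j i = C.pos (i * P.M ^ j) / P.T j
  root : C.lab n 0 = 0
  lower : ∀ (R : Finset (ℕ × ℕ)) (j i : ℕ), j ≤ n → i < P.M ^ (n - j) →
    ∑ r ∈ Finset.range (P.M ^ j), (C.d (i * P.M ^ j + r) - η * C.w (i * P.M ^ j + r)) ≤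
      cval P vis hid R j i (C.pos (i * P.M ^ j)) (C.pos ((i + 1) * P.M ^ j))

/-- What the structural lemmas need from the machines: a lane uses only the rounds so far, its
pieces are units of the region, its positions are mesh points. -/
structure MachOK (P : Par) (mc : Mach) : Prop where
  congr : ∀ s q κ j a D D' coin, (∀ κ', κ' ≤ κ → D κ' = D' κ') →
    mc.lane s q κ j a D coin = mc.lane s q κ j a D' coin
  label : ∀ s q κ j a D coin m, 0 < j → 2 ^ s ∣ j → m < P.M ^ 2 ^ s →
    (mc.lane s q κ j a D coin m).1 ∈ P.desc j (2 ^ s) a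
  mesh : ∀ s q κ j a D coin m, P.μ ∣ (mc.lane s q κ j a D coin m).2.1 ∧
    P.μ ∣ (mc.lane s q κ j a D coin m).2.2

/-- Everything that is fixed before the seeds are drawn. -/
structure QPar where
  P : Par
  mc : Mach
  /-- level of the root; the instance has `M ^ n` rows -/
  n : ℕ
  /-- index of the root -/
  N : ℤ
  /-- number of coins per level and scale -/
  Cn : ℕ
  /-- the seeds are uniform in `0, …, q - 1` -/
  q : ℕ

/-- Number of rows. -/
def QPar.K (Q : QPar) : ℕ := Q.P.M ^ Q.n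

/-- The space of the seeds. -/
abbrev QPar.Seed (Q : QPar) : Type := Ix Q.n Q.P.M Q.P.S Q.Cn → Fin Q.q

/-- The query theorem for one choice of the parameters, for all instances with the weights `ℓ` and
loss `η`: mean certified cost of the root, and mean number of cells read. -/
def QPar.Good (Q : QPar) (η ε A : ℝ) : Prop :=
  ∀ (vis hid : Leaf) (C : Chain Q.P vis hid Q.n), Inst Q.P vis hid Q.n η C →
    (∀ i, C.w i = Q.P.ℓ) →
    av (fun w : Q.Seed =>
        (cR Q.P Q.mc (toRnd Q.P.J w) vis hid Q.n 0 0 Q.N (C.pos 0) (C.pos Q.K) : ℝ)) ≤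
      ∑ i ∈ Finset.range Q.K, C.d i + ε * (Q.P.ℓ * Q.K) ∧
    av (fun w : Q.Seed =>
        ((rd Q.P Q.mc (toRnd Q.P.J w) vis hid Q.n 0 0 Q.N).card : ℝ)) ≤ A

/-- **The query theorem** for a family of parameters; `m k cd` = constants depending on `ε`
(`M = 2 ^ (20 m)`, `J = 2 ^ k - 1`, cut `J n / 2 - n / cd`), `n` levels, `S` scales, row length
`ℓ`, mesh `μ`, positions `≤ B`; the loss of the instances and the mesh (relative to `ℓ`) are at most
`1 / (a₀ (n + 2) ^ a₀)`; the fine net of scale `s` has the spacing `T / 2 ^ (2 m 2 ^ s)`. -/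
def StmtQT (fam : (m k cd n S ℓ μ B : ℕ) → QPar) : Prop :=
  ∀ ε : ℝ, 0 < ε → ∃ m k cd a₀ n₀ : ℕ, ∃ c A : ℝ, 0 < m ∧ 0 < c ∧
    ∀ n S ℓ μ B : ℕ, n₀ ≤ n → 2 ^ S ∣ n → (n + 2) ^ 3 ≤ (2 ^ m) ^ 2 ^ S →
      2 ^ S ≤ 6 * (Nat.log 2 (n + 2) + 2) → 0 < μ → μ ∣ ℓ → a₀ * (n + 2) ^ a₀ * μ ≤ ℓ →
      2 ^ (2 * m * 2 ^ S) ∣ ℓ / μ → 0 < ℓ →
      2 ^ (20 * m * n) * ℓ ≤ B → ∀ η : ℝ, 0 ≤ η → a₀ * (n + 2) ^ a₀ * η ≤ 1 →
      (fam m k cd n S ℓ μ B).Good η ε (A * ((2 ^ (20 * m * n) : ℝ) ^ 2 * Real.exp (-c * n)))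

end Vale.Agent.P315.C
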