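import Vale.Agent.P315.C.Area
import Vale.Agent.P315.C.Stmt
import Vale.Agent.P315.H659.Seed

/-!
P315, row C-AREA: the area half of the query theorem, over the space of the seeds.
-/

set_option autoImplicit false

namespace Vale.Agent.P315.C.Area

open Finset Vale.Agent.P315.C Vale.Agent.P315.H123
open Vale.Agent.P315.H731 (av)
open Vale.Agent.P315.H659 (Ix toRnd jits)

theorem laneOK_of_machOK {P : Par} {mc : Mach} (h : MachOK P mc) : LaneOK P mc :=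
  fun s q κ j a D coin m _ _ hd hj hm => h.label s q κ j a D coin m hj hd hm

/-- The jitters of the levels `1, …, n` as a table. -/
def tabXi {n M J : ℕ} (hM : 0 < M) (y : Fin (n + 1) × Fin M → Fin (J + 1)) (l s : ℕ) : ℕ :=
  if h : l < n then (y (⟨l + 1, by omega⟩, ⟨s % M, Nat.mod_lt _ hM⟩) : ℕ) else 0

theorem xs_toRnd {n S Cn q J : ℕ} {P : Par} (hM : 0 < P.M) (w : Ix n P.M S Cn → Fin q) :
    xs P (toRnd J w) = tabXi hM (jits J w) := by
  funext l s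
  unfold xs toRnd tabXi jits
  dsimp only
  by_cases h : l < n
  · rw [dif_pos h, dif_pos ⟨by omega, Nat.mod_lt _ hM⟩]
  · rw [dif_neg h, dif_neg (by omega)]

/-- **Mean of the exponential weight** over the seeds, for every geometry. -/
theorem av_Wt {n S Cn q J : ℕ} {P : Par} (hM : 0 < P.M) (hq : 0 < q) (hJ : J + 1 ∣ q)
    (i : ℕ) (lam : ℝ) :
    av (fun w : Ix n P.M S Cn → Fin q => Wt P.M (xs P (toRnd J w)) lam n i) ≤
      (P.M : ℝ) ^ n * Real.exp (n * (- lam * J / 2 + lam ^ 2 * J ^ 2 / 8)) := by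
  have e1 : av (fun w : Ix n P.M S Cn → Fin q => Wt P.M (xs P (toRnd J w)) lam n i) =
      av (fun y : Fin (n + 1) × Fin P.M → Fin (J + 1) => Wt P.M (tabXi hM y) lam n i) := by
    rw [← H659.av_jits (n := n) (M := P.M) (S := S) (Cn := Cn) hq hJ
      (fun y => Wt P.M (tabXi hM y) lam n i)]
    refine H731.av_congr fun w => ?_
    rw [xs_toRnd hM w]
  rw [e1]
  unfold av
  refine mean_Wt (M := P.M) J n i lam (fun y => tabXi hM y)
    (fun r k => if h : k < n then (⟨k + 1, by omega⟩,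
      ⟨((P.M ^ n * i + r) / P.M ^ k) % P.M, Nat.mod_lt _ hM⟩) else (⟨0, by omega⟩, ⟨0, hM⟩))
    (fun y r _ k hk => by
      unfold tabXi
      rw [dif_pos hk, dif_pos hk]) (fun r _ k hk k' hk' hkk => ?_)
  have h1 : k < n := by simpa using hk
  have h2 : k' < n := by simpa using hk'
  dsimp only at hkk
  rw [dif_pos h1, dif_pos h2] at hkk
  have h3 := congrArg (fun z : Fin (n + 1) × Fin P.M => (z.1 : ℕ)) hkk
  simp only at h3
  omega

/-- **Mean area over the seeds**, additive geometry, any index. -/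
theorem av_card_rd_box {M ℓ μ B J S H n Cn q : ℕ} (hM : 2 ≤ M) {mc : Mach} {vis hid : Leaf}
    (hL : MachOK (boxPar M ℓ μ B J S H) mc) (hq : 0 < q) (hJq : J + 1 ∣ q)
    {lam C : ℝ} (hlam : 0 ≤ lam) (hC : 1 ≤ C)
    (hCb : 1 + ∑ s ∈ range S, 3 * ((2 ^ s * mc.cnt s : ℕ) : ℝ) * Real.exp (lam * (2 ^ s : ℕ)) /
      (M : ℝ) ^ 2 ^ s ≤ C) (i a : ℕ) (b : ℤ) :
    av (fun w : Ix n M S Cn → Fin q =>
      ((rd (boxPar M ℓ μ B J S H) mc (toRnd J w) vis hid n i a b).card : ℝ)) ≤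
      3 * ((M : ℝ) ^ n) ^ 2 * C ^ n *
        Real.exp (lam * b + n * (- lam * J / 2 + lam ^ 2 * J ^ 2 / 8)) := by
  have h1 := H731.av_mono (Ω := Ix n M S Cn → Fin q) fun w =>
    card_rd_box (ℓ := ℓ) (μ := μ) (B := B) (J := J) (S := S) (H := H) hM (ω := toRnd J w)
      (vis := vis) (hid := hid) (laneOK_of_machOK hL) hlam hC hCb n i a b
  refine h1.trans ?_
  rw [H731.av_const_mul]
  have hP : (boxPar M ℓ μ B J S H).M = M := rfl
  have h2 := av_Wt (n := n) (S := S) (Cn := Cn) (q := q) (J := J) (P := boxPar M ℓ μ B J S H)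
    (by rw [hP]; omega) hq hJq i lam
  have hC0 : 0 ≤ C := by linarith
  have h3 : 0 ≤ 3 * (M : ℝ) ^ n * C ^ n * Real.exp (lam * b) := by positivity
  refine (mul_le_mul_of_nonneg_left h2 h3).trans (le_of_eq ?_)
  rw [hP, Real.exp_add]
  ring

/-- **Area half of the query theorem**: if the index of the root is at most `(J/2 - c) n` and the
lanes are few, the mean number of cells read is at most `3 M ^ (2 n) exp (- (c² / J²) n)`. -/
theorem area_good {M ℓ μ B J S H n Cn q : ℕ} (hM : 2 ≤ M) (hJ : 0 < J) {mc : Mach}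
    {vis hid : Leaf} (hL : MachOK (boxPar M ℓ μ B J S H) mc) (hq : 0 < q) (hJq : J + 1 ∣ q)
    {c : ℝ} (hc : 0 ≤ c)
    (hC : ∑ s ∈ range S, 3 * ((2 ^ s * mc.cnt s : ℕ) : ℝ) *
      Real.exp (4 * c / J ^ 2 * (2 ^ s : ℕ)) / (M : ℝ) ^ 2 ^ s ≤ c ^ 2 / J ^ 2) (i a : ℕ) {N : ℤ}
    (hN : (N : ℝ) ≤ (J / 2 - c) * n) :
    av (fun w : Ix n M S Cn → Fin q =>
      ((rd (boxPar M ℓ μ B J S H) mc (toRnd J w) vis hid n i a N).card : ℝ)) ≤
      3 * (((M : ℝ) ^ n) ^ 2 * Real.exp (- (c ^ 2 / J ^ 2) * n)) := by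
  have hJ0 : (0 : ℝ) < J := by exact_mod_cast hJ
  have hlam : (0 : ℝ) ≤ 4 * c / J ^ 2 := by positivity
  have hC1 : (1 : ℝ) ≤ 1 + c ^ 2 / (J : ℝ) ^ 2 := by
    have : 0 ≤ c ^ 2 / (J : ℝ) ^ 2 := by positivity
    linarith
  refine (av_card_rd_box hM hL hq hJq hlam hC1 (add_le_add le_rfl hC) i a N).trans ?_
  have h0 : (1 + c ^ 2 / (J : ℝ) ^ 2) ^ n ≤ Real.exp (n * (c ^ 2 / J ^ 2)) := by
    rw [mul_comm, Real.exp_mul, Real.rpow_natCast]
    have : 1 + c ^ 2 / (J : ℝ) ^ 2 ≤ Real.exp (c ^ 2 / J ^ 2) := by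
      linarith [Real.add_one_le_exp (c ^ 2 / (J : ℝ) ^ 2)]
    exact pow_le_pow_left₀ (by positivity) this n
  have h2 : n * (c ^ 2 / (J : ℝ) ^ 2) + (4 * c / (J : ℝ) ^ 2 * N + n * (- (4 * c / J ^ 2) * J / 2 +
      (4 * c / J ^ 2) ^ 2 * J ^ 2 / 8)) ≤ - (c ^ 2 / J ^ 2) * n := by
    have h1 : 4 * c / (J : ℝ) ^ 2 * N ≤ 4 * c / J ^ 2 * ((J / 2 - c) * n) :=
      mul_le_mul_of_nonneg_left hN hlam
    have h3 : (4 * c / (J : ℝ) ^ 2) ^ 2 * J ^ 2 / 8 = 2 * (c ^ 2 / J ^ 2) := by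
      field_simp; ring
    have h4 : 4 * c / (J : ℝ) ^ 2 * ((J / 2 - c) * n) =
        n * (4 * c / J ^ 2 * J / 2) - 4 * (c ^ 2 / J ^ 2) * n := by
      field_simp
    rw [h3]
    rw [h4] at h1
    nlinarith
  calc 3 * ((M : ℝ) ^ n) ^ 2 * (1 + c ^ 2 / (J : ℝ) ^ 2) ^ n *
        Real.exp (4 * c / (J : ℝ) ^ 2 * N +
          n * (- (4 * c / J ^ 2) * J / 2 + (4 * c / J ^ 2) ^ 2 * J ^ 2 / 8))
      ≤ 3 * ((M : ℝ) ^ n) ^ 2 * Real.exp (n * (c ^ 2 / (J : ℝ) ^ 2)) *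
        Real.exp (4 * c / (J : ℝ) ^ 2 * N +
          n * (- (4 * c / J ^ 2) * J / 2 + (4 * c / J ^ 2) ^ 2 * J ^ 2 / 8)) := by
        gcongr
    _ = 3 * (((M : ℝ) ^ n) ^ 2 *
        Real.exp (n * (c ^ 2 / (J : ℝ) ^ 2) + (4 * c / (J : ℝ) ^ 2 * N +
          n * (- (4 * c / J ^ 2) * J / 2 + (4 * c / J ^ 2) ^ 2 * J ^ 2 / 8)))) := by
        rw [Real.exp_add (n * (c ^ 2 / (J : ℝ) ^ 2))]; ring
    _ ≤ _ := by
        have := Real.exp_le_exp.2 h2
        gcongr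

end Vale.Agent.P315.C.Area
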