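import Vale.Agent.P315.C.Stmt
import Vale.Agent.P315.H659.Seed
import Vale.Agent.P315.H927.RdArea

/-!
P315, part C: the mean number of cells read, over the seeds of `C/Stmt.lean`.
-/

set_option autoImplicit false

open Finset

namespace Vale.Agent.P315.C

open Vale.Agent.P315.H731 (av av_congr av_const av_mono av_restrict av_map_pi av_resample_set)
open Vale.Agent.P315.H659 (Ix toRnd)
open Vale.Agent.P315.H927 (JI xiOf)

/-! ### The jitters of level `0` are not used -/

/-- Random data with the same jitters of the levels `≥ 1`. -/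
structure Same (ω ω' : Rnd) : Prop where
  xi : ∀ l, 1 ≤ l → ω.xi l = ω'.xi l
  coin : ∀ l, ω.coin l = ω'.coin l

theorem Xi_same (P : Par) {ω ω' : Rnd} (h : Same ω ω') {j e : ℕ} (he : e ≤ j) (m : ℕ) :
    Xi P ω j e m = Xi P ω' j e m := by
  unfold Xi
  refine Finset.sum_congr rfl fun x hx => ?_
  have := Finset.mem_range.mp hx
  rw [h.xi (j - x) (by omega)]

theorem rd_same (P : Par) (mc : Mach) (vis hid : Leaf) {ω ω' : Rnd} (h : Same ω ω') (j : ℕ) :
    rd P mc ω vis hid j = rd P mc ω' vis hid j := by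
  induction j using Nat.strong_induction_on with
  | _ j ih =>
    rcases j with _ | j
    · rfl
    rw [rd_succ, rd_succ]
    funext i a b
    unfold stepRead
    have e0 : rd P mc ω vis hid (j + 1 - 1) = rd P mc ω' vis hid (j + 1 - 1) := ih _ (by omega)
    rw [e0, h.xi (j + 1) (by omega)]
    congr 1
    refine Finset.biUnion_congr rfl fun s hs => ?_
    have hdvd : 2 ^ s ∣ j + 1 := (Finset.mem_filter.mp hs).2
    have hle : 2 ^ s ≤ j + 1 := Nat.le_of_dvd (by omega) hdvd
    have h2 : rd P mc ω vis hid (j + 1 - 2 ^ s) = rd P mc ω' vis hid (j + 1 - 2 ^ s) :=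
      ih _ (by have := Nat.one_le_two_pow (n := s); omega)
    have h3 : ∀ a κ m x, uidx P ω (j + 1) a s κ m x = uidx P ω' (j + 1) a s κ m x := by
      intro a κ m x
      unfold uidx
      rw [Xi_same P h hle]
    have h4 : hist P ω vis hid (rd P mc ω vis hid) (j + 1) i a s =
        hist P ω' vis hid (rd P mc ω' vis hid) (j + 1) i a s := by
      unfold hist
      funext κ m x u v
      rw [h2, h3]
    have h5 : ∀ q κ, laneOf P mc ω vis hid (rd P mc ω vis hid) (j + 1) i a s q κ =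
        laneOf P mc ω' vis hid (rd P mc ω' vis hid) (j + 1) i a s q κ := by
      intro q κ
      unfold laneOf
      rw [h4, h.coin]
    simp only [h2, h3, h5]

theorem cR_same (P : Par) (mc : Mach) (vis hid : Leaf) {ω ω' : Rnd} (h : Same ω ω') (j : ℕ) :
    cR P mc ω vis hid j = cR P mc ω' vis hid j := by
  funext i a b u v
  unfold cR
  rw [rd_same P mc vis hid h j]

/-! ### Jitters and coins -/

section

variable {n M S Cn q : ℕ}

/-- Jitters of the levels `1, …, n`. -/
def jitS (J : ℕ) (w : Ix n M S Cn → Fin q) : JI n M → Fin (J + 1) :=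
  fun x => ⟨(w (.inl (x.1.succ, x.2)) : ℕ) % (J + 1), Nat.mod_lt _ (Nat.succ_pos J)⟩

/-- Data with given jitters and the coins of `w`. -/
def mkR (J : ℕ) (w : Ix n M S Cn → Fin q) (y : JI n M → Fin (J + 1)) : Rnd where
  xi := xiOf n M J y
  coin := (toRnd J w).coin

theorem same_mkR (J : ℕ) (w : Ix n M S Cn → Fin q) : Same (toRnd J w) (mkR J w (jitS J w)) := by
  constructor
  · intro l hl
    funext m
    show (toRnd J w).xi l m = xiOf n M J (jitS J w) l m
    unfold toRnd xiOf jitS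
    dsimp only
    by_cases h : l ≤ n ∧ m < M
    · rw [dif_pos ⟨by omega, h.2⟩, dif_pos ⟨hl, h.1, h.2⟩]
      have e : (⟨l, by omega⟩ : Fin (n + 1)) = Fin.succ ⟨l - 1, by omega⟩ := by
        apply Fin.ext
        simp
        omega
      rw [e]
    · rw [dif_neg (fun h' => h ⟨by omega, h'.2⟩), dif_neg (fun h' => h ⟨h'.2.1, h'.2.2⟩)]
  · intro l
    rfl

/-- Coordinates of all jitters. -/
def jitAll (n M S Cn : ℕ) : Finset (Ix n M S Cn) := by
  classical
  exact univ.filter fun i => ∃ x, i = .inl x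

theorem mem_jitAll {i : Ix n M S Cn} : i ∈ jitAll n M S Cn ↔ ∃ x, i = .inl x := by
  simp [jitAll]

/-- The jitters are uniform, independent of the coins. -/
theorem av_jitS {J : ℕ} (hq : 0 < q) (hJ : J + 1 ∣ q)
    (F : (JI n M → Fin (J + 1)) → (Ix n M S Cn → Fin q) → ℝ)
    (hF : ∀ y (w w' : Ix n M S Cn → Fin q), (∀ x, w (.inr x) = w' (.inr x)) → F y w = F y w') :
    av (fun w : Ix n M S Cn → Fin q => F (jitS J w) w) =
      av (fun w : Ix n M S Cn → Fin q => av (fun y : JI n M → Fin (J + 1) => F y w)) := by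
  classical
  have : Nonempty (Fin q) := ⟨⟨0, hq⟩⟩
  rw [← av_resample_set (jitAll n M S Cn)]
  refine av_congr fun w => ?_
  have e1 : ∀ a : Ix n M S Cn → Fin q,
      F (jitS J ((jitAll n M S Cn).piecewise a w)) ((jitAll n M S Cn).piecewise a w) =
        F (jitS J a) w := by
    intro a
    have e2 : jitS J ((jitAll n M S Cn).piecewise a w) = jitS J a := by
      funext x
      apply Fin.ext
      show ((jitAll n M S Cn).piecewise a w (.inl (x.1.succ, x.2)) : ℕ) % (J + 1) = _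
      rw [Finset.piecewise_eq_of_mem _ _ _ (mem_jitAll.mpr ⟨_, rfl⟩)]
      rfl
    rw [e2]
    refine hF _ _ _ fun x => ?_
    rw [Finset.piecewise_eq_of_notMem]
    rw [mem_jitAll]
    rintro ⟨y, hy⟩
    exact absurd hy (by simp)
  rw [av_congr e1]
  have h1 := av_restrict (X := Fin q)
    (fun x : JI n M => (Sum.inl (x.1.succ, x.2) : Ix n M S Cn)) (by
      rintro ⟨x1, x2⟩ ⟨y1, y2⟩ hxy
      have h2 := Sum.inl.inj hxy
      rw [Prod.ext_iff] at h2
      exact Prod.ext (Fin.succ_injective _ h2.1) h2.2)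
    (fun v : JI n M → Fin q =>
      F (fun x => ⟨(v x : ℕ) % (J + 1), Nat.mod_lt _ (Nat.succ_pos J)⟩) w)
  have h2 := av_map_pi (ι := JI n M) (A := fun _ => Fin q)
    (B := fun _ => Fin (J + 1))
    (fun _ a => ⟨(a : ℕ) % (J + 1), Nat.mod_lt _ (Nat.succ_pos J)⟩) (fun _ => q / (J + 1))
    (fun _ b => H731.card_fibre_mod (Nat.succ_pos J) hJ b) (fun y => F y w)
  rw [← h2, ← h1]
  rfl

end

/-- **Mean number of cells read**, over the seeds. -/
theorem av_card_rd {P : Par} {mc : Mach} {vis hid : Leaf} {n Cn q : ℕ} (hn : 0 < n)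
    (hM : 2 ≤ P.M) (hJ : 0 < P.J) (hq : 0 < q) (hJq : P.J + 1 ∣ q)
    (hpen : ∀ j e a x, P.pen j e a x = 0)
    (hkids : ∀ j a, P.kids j a ⊆ Ico (a * P.M) ((a + 2) * P.M)) (hmc : MachOK P mc)
    {c : ℝ} (hc : 0 ≤ c) (hC : ∑ s ∈ range P.S, 3 * ((mc.cnt s * 2 ^ s : ℕ) : ℝ) *
      Real.exp (4 * c / P.J ^ 2 * 2 ^ s) / (P.M : ℝ) ^ 2 ^ s ≤ c ^ 2 / P.J ^ 2) (a0 : ℕ) (b : ℤ)
    (hb : (b : ℝ) ≤ (P.J / 2 - c) * n) :
    av (fun w : Ix n P.M P.S Cn → Fin q =>
        ((rd P mc (toRnd P.J w) vis hid n 0 a0 b).card : ℝ)) ≤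
      3 * ((P.M : ℝ) ^ n) ^ 2 * Real.exp (-(c ^ 2 / P.J ^ 2) * n) := by
  have : Nonempty (Fin q) := ⟨⟨0, hq⟩⟩
  have h0 : ∀ w : Ix n P.M P.S Cn → Fin q,
      ((rd P mc (toRnd P.J w) vis hid n 0 a0 b).card : ℝ) =
        (fun (y : JI n P.M → Fin (P.J + 1)) (w : Ix n P.M P.S Cn → Fin q) =>
          ((rd P mc (mkR P.J w y) vis hid n 0 a0 b).card : ℝ)) (jitS P.J w) w := by
    intro w
    show _ = ((rd P mc (mkR P.J w (jitS P.J w)) vis hid n 0 a0 b).card : ℝ)
    rw [rd_same P mc vis hid (same_mkR P.J w) n]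
  rw [av_congr h0, av_jitS hq hJq
    (fun (y : JI n P.M → Fin (P.J + 1)) (w : Ix n P.M P.S Cn → Fin q) =>
          ((rd P mc (mkR P.J w y) vis hid n 0 a0 b).card : ℝ)) (by
    intro y w w' h
    have e : mkR P.J w y = mkR P.J w' y := by
      unfold mkR
      congr 1
      unfold toRnd
      dsimp only
      funext l s k
      split_ifs with h1
      · rw [h]
      · rfl
    show ((rd P mc (mkR P.J w y) vis hid n 0 a0 b).card : ℝ) = _
    rw [e])]
  refine H731.av_le fun w => ?_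
  have h1 := H927.mean_card_rd_final (P := P) (mc := mc) (vis := vis) (hid := hid) hn hM hJ hpen
    hkids (mkR P.J w) (fun y => rfl)
    (fun y j i a s q' κ m h1 h2 h3 _ _ => hmc.label s q' κ j a _ _ m (by omega) h1 h3)
    hc hC a0 b hb
  have hcard : (0 : ℝ) < (Fintype.card (JI n P.M → Fin (P.J + 1)) : ℝ) := by
    exact_mod_cast Fintype.card_pos
  unfold av
  rw [div_le_iff₀ hcard]
  refine h1.trans (le_of_eq ?_)
  ring

end Vale.Agent.P315.C
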