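import Vale.Agent.P315.C.AreaQ
import Vale.Agent.P315.H801.Mach

/-!
P315, part C: the concrete family of parameters of the query theorem.

`m`: `B = 2 ^ m`, `M = B ^ 20`; `k`: `J + 1 = 2 ^ k`; `cd`: the cut is `n / cd` below `J n / 2`;
`n` levels, scales `1, …, S`, row length `ℓ`, mesh `μ`, positions at most `B`.
-/

set_option autoImplicit false

open Finset

namespace Vale.Agent.P315.C

open Vale.Agent.P315.H220 (cntQ)

/-- The numbers of the machines of scale `s`. -/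
def famMP (m : ℕ) : H801.MP where
  g := fun s => 2 ^ (2 * m * 2 ^ s)
  Dl := fun s => 16 ^ s * m ^ 2
  NL := fun s => 20 * m * 2 ^ s
  R := fun s => 2 ^ (m * 2 ^ s + 5)
  Sm := fun s => 2 ^ (4 * m * 2 ^ s)
  T := fun s => 2 ^ (50 * m * 2 ^ s)
  Sh := fun s => 2 ^ (54 * m * 2 ^ s)
  C := 10

/-- Number of levels below the cut, rounded up. -/
def famCut (cd n : ℕ) : ℕ := (n + cd - 1) / cd

/-- Index of the root. -/
def famN (k cd n : ℕ) : ℤ := (((2 ^ k - 1) * n / 2 : ℕ) : ℤ) - (famCut cd n : ℕ)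

/-- First round of the machines: own index `- famH`. A block that meets the own indices below it
carries no mass. -/
def famH (m n S : ℕ) : ℕ := n + 2 ^ S + 16 ^ S * m ^ 2

/-- **The family of parameters.** -/
def fam (m k cd n S ℓ μ B : ℕ) : QPar where
  P := boxPar (2 ^ (20 * m)) ℓ μ B (2 ^ k - 1) (S + 1) (famH m n S)
  mc := H801.mach (famMP m) (2 ^ (20 * m)) ℓ μ B
  n := n
  N := famN k cd n
  Cn := 2 ^ (4 * m * 2 ^ S)
  q := 2 ^ max k (50 * m * 2 ^ S)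

section

variable {m k cd n S ℓ μ B : ℕ}

theorem fam_P : (fam m k cd n S ℓ μ B).P =
    boxPar (2 ^ (20 * m)) ℓ μ B (2 ^ k - 1) (S + 1) (famH m n S) := rfl
theorem fam_n : (fam m k cd n S ℓ μ B).n = n := rfl
theorem fam_N : (fam m k cd n S ℓ μ B).N = famN k cd n := rfl
theorem fam_M : (fam m k cd n S ℓ μ B).P.M = 2 ^ (20 * m) := rfl
theorem fam_J : (fam m k cd n S ℓ μ B).P.J = 2 ^ k - 1 := rfl
theorem fam_S : (fam m k cd n S ℓ μ B).P.S = S + 1 := rfl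
theorem fam_H : (fam m k cd n S ℓ μ B).P.H = n + 2 ^ S + 16 ^ S * m ^ 2 := rfl
theorem fam_Cn : (fam m k cd n S ℓ μ B).Cn = 2 ^ (4 * m * 2 ^ S) := rfl
theorem fam_q : (fam m k cd n S ℓ μ B).q = 2 ^ max k (50 * m * 2 ^ S) := rfl

theorem fam_K : (fam m k cd n S ℓ μ B).K = 2 ^ (20 * m * n) := by
  unfold QPar.K
  rw [fam_M, fam_n, ← pow_mul]

theorem fam_q_pos : 0 < (fam m k cd n S ℓ μ B).q := by rw [fam_q]; positivity

theorem fam_M_pos : 0 < (fam m k cd n S ℓ μ B).P.M := by rw [fam_M]; positivity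

theorem fam_J_succ : (fam m k cd n S ℓ μ B).P.J + 1 = 2 ^ k := by
  rw [fam_J]
  have : 1 ≤ 2 ^ k := Nat.one_le_two_pow
  omega

theorem fam_J_dvd : (fam m k cd n S ℓ μ B).P.J + 1 ∣ (fam m k cd n S ℓ μ B).q := by
  rw [fam_J_succ, fam_q]
  exact pow_dvd_pow 2 (le_max_left _ _)

theorem fam_T_dvd {s : ℕ} (hs : s ≤ S) : (famMP m).T s ∣ (fam m k cd n S ℓ μ B).q := by
  rw [fam_q]
  exact pow_dvd_pow 2 ((Nat.mul_le_mul_left _ (Nat.pow_le_pow_right (by norm_num) hs)).trans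
    (le_max_right _ _))

theorem fam_Sm_le {s : ℕ} (hs : s ≤ S) : (famMP m).Sm s ≤ (fam m k cd n S ℓ μ B).Cn := by
  rw [fam_Cn]
  exact Nat.pow_le_pow_right (by norm_num)
    (Nat.mul_le_mul_left _ (Nat.pow_le_pow_right (by norm_num) hs))

theorem fam_machOK : MachOK (fam m k cd n S ℓ μ B).P (fam m k cd n S ℓ μ B).mc :=
  H801.machOK (famMP m) _ ℓ μ B _ _ _

theorem famCut_bounds (hcd : 0 < cd) (n : ℕ) :
    n ≤ famCut cd n * cd ∧ famCut cd n * cd ≤ n + cd := by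
  unfold famCut
  have h1 := Nat.div_add_mod (n + cd - 1) cd
  have h2 := Nat.mod_lt (n + cd - 1) hcd
  have h3 : (n + cd - 1) / cd * cd = cd * ((n + cd - 1) / cd) := Nat.mul_comm _ _
  omega

/-- The root index is at most `(J / 2 - 1 / cd) n`. -/
theorem famN_le (hcd : 0 < cd) : ((famN k cd n : ℤ) : ℝ) ≤
    (((2 ^ k - 1 : ℕ) : ℝ) / 2 - 1 / cd) * n := by
  unfold famN
  rw [Int.cast_sub, Int.cast_natCast, Int.cast_natCast]
  have h1 : ((((2 ^ k - 1) * n / 2 : ℕ)) : ℝ) ≤ (((2 ^ k - 1 : ℕ) : ℝ) * n) / 2 := by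
    have := Nat.cast_div_le (α := ℝ) (m := (2 ^ k - 1) * n) (n := 2)
    push_cast at this
    exact this
  have h2 : (n : ℝ) / cd ≤ famCut cd n := by
    rw [div_le_iff₀ (by exact_mod_cast hcd)]
    exact_mod_cast (famCut_bounds hcd n).1
  have e : (((2 ^ k - 1 : ℕ) : ℝ) / 2 - 1 / cd) * n =
      (((2 ^ k - 1 : ℕ) : ℝ) * n) / 2 - n / cd := by ring
  rw [e]
  linarith

/-- The root index is at least `(J / 2 - 1 / cd) n - 2`. -/
theorem famN_ge (hcd : 0 < cd) : (((2 ^ k - 1 : ℕ) : ℝ) / 2 - 1 / cd) * n - 2 ≤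
    ((famN k cd n : ℤ) : ℝ) := by
  unfold famN
  rw [Int.cast_sub, Int.cast_natCast, Int.cast_natCast]
  have hcd' : (0 : ℝ) < cd := by exact_mod_cast hcd
  have h1 : (((2 ^ k - 1 : ℕ) : ℝ) * n) / 2 - 1 ≤ (((2 ^ k - 1) * n / 2 : ℕ) : ℝ) := by
    have h := Nat.lt_div_mul_add (a := (2 ^ k - 1) * n) (b := 2) (by norm_num)
    have h' : (((2 ^ k - 1 : ℕ) : ℝ) * n) < (((2 ^ k - 1) * n / 2 : ℕ) : ℝ) * 2 + 2 := by
      exact_mod_cast h
    linarith
  have h2 : (famCut cd n : ℝ) ≤ n / cd + 1 := by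
    have h := (famCut_bounds hcd n).2
    have h' : (famCut cd n : ℝ) * cd ≤ n + cd := by exact_mod_cast h
    rw [← sub_le_iff_le_add, le_div_iff₀ hcd']
    linarith
  have e : (((2 ^ k - 1 : ℕ) : ℝ) / 2 - 1 / cd) * n =
      (((2 ^ k - 1 : ℕ) : ℝ) * n) / 2 - n / cd := by ring
  rw [e]
  linarith

/-- Number of the seed words. -/
theorem fam_cnt (s : ℕ) : (fam m k cd n S ℓ μ B).mc.cnt s = (famMP m).cnt s := rfl

end

end Vale.Agent.P315.C
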