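import Vale.Agent.P315.C.Fam
import Vale.Agent.P315.H508.Master
import Vale.Agent.P315.H508.Fails

/-!
P315, part C: the area half of the query theorem for the concrete family.
-/

set_option autoImplicit false

open Finset Filter

namespace Vale.Agent.P315.C

open Vale.Agent.P315.H220 (cntQ)
open Vale.Agent.P315.H731 (av)
open Vale.Agent.P315.H659 (Ix toRnd)

/-- The lanes of scale `s` are few. -/
theorem fam_cnt_le : ∀ᶠ m : ℕ in atTop, ∀ s : ℕ,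
    2 ^ s * (famMP m).cnt s ≤ 2 ^ (10 * m * 2 ^ s) := by
  filter_upwards [H508.nat_poly_le 5120 64 3] with m hm s
  unfold H801.MP.cnt
  split_ifs with h0
  · simp
  have h1 := hm s
  set N := m * 2 ^ s with hN
  have eg : (famMP m).g s = 2 ^ (2 * N) := by
    show 2 ^ (2 * m * 2 ^ s) = _
    congr 1; rw [hN]; ring
  have eNL : (famMP m).NL s = 20 * m * 2 ^ s := rfl
  have eDl : (famMP m).Dl s = 16 ^ s * m ^ 2 := rfl
  have eR : (famMP m).R s = 2 ^ N * 32 := by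
    show 2 ^ (m * 2 ^ s + 5) = _
    rw [pow_add]; norm_num [hN]
  have eSm : (famMP m).Sm s = 2 ^ (4 * N) := by
    show 2 ^ (4 * m * 2 ^ s) = _
    congr 1; rw [hN]; ring
  have e10 : 10 * m * 2 ^ s = 2 * N + 2 * N + N + 4 * N + N := by rw [hN]; ring
  rw [eg, eNL, eDl, eR, eSm, e10]
  unfold cntQ
  have hg : 1 ≤ 2 ^ (2 * N) := Nat.one_le_two_pow
  have hg1 : 2 ^ (2 * N) + 1 ≤ 2 * 2 ^ (2 * N) := by omega
  have hg2 : 2 * 2 ^ (2 * N) + 1 ≤ 4 * 2 ^ (2 * N) := by omega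
  calc 2 ^ s * ((2 ^ (2 * N) + 1) * ((2 * 2 ^ (2 * N) + 1) * (20 * m * 2 ^ s *
        (16 ^ s * m ^ 2 * (2 ^ N * 32 * 2 ^ (4 * N))))))
      ≤ 2 ^ s * ((2 * 2 ^ (2 * N)) * ((4 * 2 ^ (2 * N)) * (20 * m * 2 ^ s *
        (16 ^ s * m ^ 2 * (2 ^ N * 32 * 2 ^ (4 * N)))))) := by gcongr
    _ = 2 ^ (2 * N) * 2 ^ (2 * N) * 2 ^ N * 2 ^ (4 * N) * (5120 * m ^ 3 * (2 ^ s * 2 ^ s * 16 ^ s)) := by
        ring
    _ = 2 ^ (2 * N) * 2 ^ (2 * N) * 2 ^ N * 2 ^ (4 * N) * (5120 * m ^ 3 * 64 ^ s) := by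
        have e : (2 : ℕ) ^ s * 2 ^ s * 16 ^ s = 64 ^ s := by
          rw [← mul_pow, ← mul_pow]
          norm_num
        rw [e]
    _ ≤ 2 ^ (2 * N) * 2 ^ (2 * N) * 2 ^ N * 2 ^ (4 * N) * 2 ^ N := by gcongr
    _ = 2 ^ (2 * N + 2 * N + N + 4 * N + N) := by rw [pow_add, pow_add, pow_add, pow_add]

/-- The lanes cost less than the gain in the exponent. -/
theorem fam_lanes (K1 : ℕ) (hK1 : 1 ≤ K1) {c : ℝ} (hc : 0 < c) (hc1 : c ≤ 1) :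
    ∀ᶠ m : ℕ in atTop, ∀ k : ℕ, 2 ≤ k → 2 ^ k ≤ K1 * m ^ 2 * 2 ^ m → ∀ S : ℕ,
      ∑ s ∈ range (S + 1), 3 * ((2 ^ s * (famMP m).cnt s : ℕ) : ℝ) *
        Real.exp (4 * c / ((2 ^ k - 1 : ℕ) : ℝ) ^ 2 * (2 ^ s : ℕ)) /
          (((2 ^ (20 * m) : ℕ)) : ℝ) ^ 2 ^ s ≤ c ^ 2 / ((2 ^ k - 1 : ℕ) : ℝ) ^ 2 := by
  filter_upwards [H508.lanes_small K1 2 hK1 hc, fam_cnt_le] with m hm hcnt k hk hkJ S
  have hJ3 : (3 : ℝ) ≤ ((2 ^ k - 1 : ℕ) : ℝ) := by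
    have h1 : 4 ≤ 2 ^ k := by
      calc 4 = 2 ^ 2 := by norm_num
        _ ≤ 2 ^ k := Nat.pow_le_pow_right (by norm_num) hk
    have h2 : 3 ≤ 2 ^ k - 1 := by omega
    exact_mod_cast h2
  have hJle : ((2 ^ k - 1 : ℕ) : ℝ) ≤ (H508.Jt K1 m : ℝ) := by
    have : 2 ^ k - 1 ≤ H508.Jt K1 m := by
      unfold H508.Jt
      omega
    exact_mod_cast this
  have hlam : 4 * c / ((2 ^ k - 1 : ℕ) : ℝ) ^ 2 ≤ 1 := by
    rw [div_le_one (by positivity)]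
    nlinarith
  have h1 := hm ((range (S + 1)).image fun s => 2 ^ s)
    (fun h => h * (famMP m).cnt (Nat.log 2 h)) (4 * c / ((2 ^ k - 1 : ℕ) : ℝ) ^ 2)
    (fun h hh => by
      obtain ⟨s, _, rfl⟩ := mem_image.1 hh
      refine ⟨Nat.one_le_two_pow, ?_⟩
      rw [Nat.log_pow (by norm_num)]
      exact hcnt s) hlam
  rw [sum_image (fun a _ b _ hab => Nat.pow_right_injective le_rfl hab)] at h1
  have h2 : c ^ 2 / (H508.Jt K1 m : ℝ) ^ 2 ≤ c ^ 2 / ((2 ^ k - 1 : ℕ) : ℝ) ^ 2 := by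
    gcongr
  refine le_trans (le_of_eq ?_) (h1.trans h2)
  refine sum_congr rfl fun s _ => ?_
  rw [Nat.log_pow (by norm_num)]
  norm_num

/-- **Area half of the query theorem for the family.** -/
theorem fam_area (K1 : ℕ) (hK1 : 1 ≤ K1) {cd : ℕ} (hcd : 0 < cd) :
    ∀ᶠ m : ℕ in atTop, ∀ k : ℕ, 2 ≤ k → 2 ^ k ≤ K1 * m ^ 2 * 2 ^ m →
      ∀ (n S ℓ μ B : ℕ) (vis hid : Leaf),
      av (fun w : (fam m k cd n S ℓ μ B).Seed =>
        ((rd (fam m k cd n S ℓ μ B).P (fam m k cd n S ℓ μ B).mc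
          (toRnd (fam m k cd n S ℓ μ B).P.J w) vis hid (fam m k cd n S ℓ μ B).n 0 0
          (fam m k cd n S ℓ μ B).N).card : ℝ)) ≤
        3 * ((2 ^ (20 * m * n) : ℝ) ^ 2 *
          Real.exp (- ((1 / cd : ℝ) ^ 2 / ((2 ^ k - 1 : ℕ) : ℝ) ^ 2) * n)) := by
  have hcd' : (0 : ℝ) < cd := by exact_mod_cast hcd
  have hc0 : (0 : ℝ) < 1 / cd := by positivity
  have hc1 : (1 : ℝ) / cd ≤ 1 := by
    rw [div_le_one hcd']
    exact_mod_cast hcd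
  filter_upwards [fam_lanes K1 hK1 hc0 hc1, eventually_ge_atTop 1] with m hm hm1
    k hk hkJ n S ℓ μ B vis hid
  have hJ : 0 < 2 ^ k - 1 := by
    have h1 : 4 ≤ 2 ^ k := by
      calc 4 = 2 ^ 2 := by norm_num
        _ ≤ 2 ^ k := Nat.pow_le_pow_right (by norm_num) hk
    omega
  have hM : 2 ≤ 2 ^ (20 * m) := by
    calc 2 = 2 ^ 1 := by norm_num
      _ ≤ 2 ^ (20 * m) := Nat.pow_le_pow_right (by norm_num) (by omega)
  have h := Area.area_good (M := 2 ^ (20 * m)) (ℓ := ℓ) (μ := μ) (B := B) (J := 2 ^ k - 1)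
    (S := S + 1) (H := famH m n S) (n := n) (Cn := (fam m k cd n S ℓ μ B).Cn)
    (q := (fam m k cd n S ℓ μ B).q) hM hJ (mc := (fam m k cd n S ℓ μ B).mc) (vis := vis)
    (hid := hid) fam_machOK fam_q_pos fam_J_dvd hc0.le (hm k hk hkJ S) 0 0
    (N := (fam m k cd n S ℓ μ B).N) (famN_le hcd)
  have e : (((2 ^ (20 * m) : ℕ) : ℝ) ^ n) = 2 ^ (20 * m * n) := by
    push_cast
    rw [← pow_mul]
  rw [e] at h
  exact h

end Vale.Agent.P315.C
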