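import Vale.Agent.P315.H140.Best

/-!
P315, part C, row C-STR: structural lemmas over `C/Alg.lean` (abstract labels), first half:
coarse routes through blocks of rows, known costs, certified costs `cval`.
`H140.Ed P p q` = admissible pair (start, end) in a row.
-/

set_option autoImplicit false

namespace Vale.Agent.P315.C

/-! ### Prices of routes -/

theorem rcost_zero (sh : ℕ) (f : Leaf) (u v : ℕ) (r : ℕ → ℕ × ℕ) :
    rcost sh 0 f u v r = sh * Nat.dist u v := by
  simp [rcost, prevPos]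

theorem prevPos_succ' (u : ℕ) (r : ℕ → ℕ × ℕ) (i : ℕ) :
    prevPos u r (i + 1) = prevPos (r 0).2 (fun i => r (i + 1)) i := by
  cases i <;> rfl

theorem rcost_succ (sh m : ℕ) (f : Leaf) (u v : ℕ) (r : ℕ → ℕ × ℕ) :
    rcost sh (m + 1) f u v r = sh * Nat.dist u (r 0).1 + f 0 (r 0).1 (r 0).2 +
      rcost sh m (fun i => f (i + 1)) (r 0).2 v (fun i => r (i + 1)) := by
  unfold rcost
  rw [Finset.sum_range_succ', prevPos_succ']
  have h : ∀ i, prevPos u r (i + 1) = prevPos (r 0).2 (fun i => r (i + 1)) i := prevPos_succ' u r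
  simp only [h]
  have h0 : prevPos u r 0 = u := rfl
  rw [h0]
  ring

theorem rcost_succ_last (sh m : ℕ) (f : Leaf) (u v : ℕ) (r : ℕ → ℕ × ℕ) :
    rcost sh (m + 1) f u v r = rcost sh m f u (r m).1 r + f m (r m).1 (r m).2 +
      sh * Nat.dist (r m).2 v := by
  unfold rcost
  rw [Finset.sum_range_succ]
  have h : prevPos u r (m + 1) = (r m).2 := rfl
  rw [h]
  ring

theorem rcost_congr {sh m : ℕ} {f g : Leaf} {u v : ℕ} {r r' : ℕ → ℕ × ℕ}
    (hr : ∀ i < m, r i = r' i)
    (hf : ∀ i < m, f i (r i).1 (r i).2 = g i (r i).1 (r i).2) :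
    rcost sh m f u v r = rcost sh m g u v r' := by
  induction m generalizing f g u r r' with
  | zero => rw [rcost_zero, rcost_zero]
  | succ m ih =>
    rw [rcost_succ, rcost_succ, ← hr 0 (Nat.succ_pos _), ← hf 0 (Nat.succ_pos _)]
    congr 1
    exact ih (fun i hi => hr (i + 1) (by omega)) (fun i hi => hf (i + 1) (by omega))

theorem rcost_mono {sh m : ℕ} {f g : Leaf} (u v : ℕ) {r : ℕ → ℕ × ℕ}
    (hf : ∀ i < m, f i (r i).1 (r i).2 ≤ g i (r i).1 (r i).2) :
    rcost sh m f u v r ≤ rcost sh m g u v r := by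
  unfold rcost
  refine Nat.add_le_add_right (Finset.sum_le_sum fun i hi => ?_) _
  exact Nat.add_le_add_left (hf i (Finset.mem_range.1 hi)) _

/-- Price of the route with the positions `a 0, …, a N` at the row boundaries. -/
theorem rcost_path (sh N : ℕ) (f : Leaf) (a : ℕ → ℕ) :
    rcost sh N f (a 0) (a N) (fun m => (a m, a (m + 1))) =
      ∑ m ∈ Finset.range N, f m (a m) (a (m + 1)) := by
  unfold rcost
  have hp : ∀ i, prevPos (a 0) (fun m => (a m, a (m + 1))) i = a i := by
    intro i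
    cases i <;> rfl
  simp [hp, Nat.dist_self]

/-! ### Cheapest routes -/

/-- One row. -/
theorem best_one_le {P : Par} (f : Leaf) (i0 u v : ℕ) {p q : ℕ} (h : H140.Ed P p q) :
    best P f i0 1 u v ≤ P.sh * Nat.dist u p + f i0 p q + P.sh * Nat.dist q v := by
  have := H140.best_le_rcost (P := P) (f := f) i0 1 u v (fun _ => (p, q)) (fun _ _ => h)
  rw [rcost_succ, rcost_zero] at this
  simpa using this

theorem best_one_le' {P : Par} (f : Leaf) (i0 : ℕ) {u v : ℕ} (h : H140.Ed P u v) :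
    best P f i0 1 u v ≤ f i0 u v := by
  have := best_one_le f i0 u v h
  simpa [Nat.dist_self] using this

/-- **Concatenation of blocks**: a coarse route `r` through `N` blocks of `n` rows, whose pieces
are priced by `best`, is at least as expensive as the cheapest route. Nothing is assumed about the
positions of `r`. -/
theorem best_le_coarse {P : Par} (hE : ∃ p q, H140.Ed P p q) (f : Leaf) (i0 n N u v : ℕ)
    (r : ℕ → ℕ × ℕ) :
    best P f i0 (N * n) u v ≤
      rcost P.sh N (fun m p q => best P f (i0 + m * n) n p q) u v r := by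
  induction N generalizing i0 u r with
  | zero => simp [rcost_zero]
  | succ N ih =>
    rw [rcost_succ, show (N + 1) * n = n + N * n by ring]
    have h1 := H140.best_add (f := f) hE i0 n (N * n) u (r 0).2 v
    have h2 := H140.best_lip_left (f := f) hE i0 n (r 0).1 u (r 0).2
    have h3 := ih (i0 + n) (r 0).2 (fun i => r (i + 1))
    have h4 : (fun m p q => best P f (i0 + n + m * n) n p q) =
        fun m p q => best P f (i0 + (m + 1) * n) n p q := by
      funext m p q
      congr 1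
      ring
    rw [h4] at h3
    have h5 : i0 + 0 * n = i0 := by ring
    simp only [h5]
    omega

/-! ### Known costs -/

theorem known_anti {P : Par} {vis hid : Leaf} {R R' : Finset (ℕ × ℕ)} (hR : R ⊆ R')
    {i p q : ℕ} (h : hid i p q ≤ vis i p q) :
    known P vis hid R' i p q ≤ known P vis hid R i p q := by
  unfold known
  by_cases h1 : ∃ a, (i, a) ∈ R ∧ P.cov a p
  · have h2 : ∃ a, (i, a) ∈ R' ∧ P.cov a p := by
      obtain ⟨a, ha, hc⟩ := h1
      exact ⟨a, hR ha, hc⟩
    rw [if_pos h1, if_pos h2]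
  · rw [if_neg h1]
    split_ifs
    · exact h
    · exact le_rfl

theorem known_le_vis {P : Par} {vis hid : Leaf} (R : Finset (ℕ × ℕ)) {i p q : ℕ}
    (h : hid i p q ≤ vis i p q) : known P vis hid R i p q ≤ vis i p q := by
  unfold known
  split_ifs
  · exact h
  · exact le_rfl

theorem hid_le_known {P : Par} {vis hid : Leaf} (R : Finset (ℕ × ℕ)) {i p q : ℕ}
    (h : hid i p q ≤ vis i p q) : hid i p q ≤ known P vis hid R i p q := by
  unfold known
  split_ifs
  · exact le_rfl
  · exact h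

theorem known_of_mem {P : Par} {vis hid : Leaf} {R : Finset (ℕ × ℕ)} {i a p q : ℕ}
    (h : (i, a) ∈ R) (hc : P.cov a p) : known P vis hid R i p q = hid i p q := by
  unfold known
  rw [if_pos ⟨a, h, hc⟩]

/-- The hidden costs are below the visible ones (on admissible pairs). -/
def HidLe (P : Par) (vis hid : Leaf) : Prop :=
  ∀ i p q, H140.Ed P p q → hid i p q ≤ vis i p q

theorem cval_anti {P : Par} (hE : ∃ p q, H140.Ed P p q) {vis hid : Leaf}
    (hle : HidLe P vis hid) {R R' : Finset (ℕ × ℕ)}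
    (hR : R ⊆ R') (j i u v : ℕ) : cval P vis hid R' j i u v ≤ cval P vis hid R j i u v :=
  H140.best_mono hE _ _ u v (fun _ _ p q hp => known_anti hR (hle _ p q hp))

/-- Only the cells in the rows of the slab matter. -/
theorem cval_congr {P : Par} (hE : ∃ p q, H140.Ed P p q) {vis hid : Leaf}
    {R R' : Finset (ℕ × ℕ)} {j i : ℕ}
    (h : ∀ τ a, i * P.M ^ j ≤ τ → τ < (i + 1) * P.M ^ j → ((τ, a) ∈ R ↔ (τ, a) ∈ R'))
    (u v : ℕ) : cval P vis hid R j i u v = cval P vis hid R' j i u v := by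
  have key : ∀ m < P.M ^ j, ∀ p q, known P vis hid R (i * P.M ^ j + m) p q =
      known P vis hid R' (i * P.M ^ j + m) p q := by
    intro m hm p q
    unfold known
    have h1 : (∃ a, (i * P.M ^ j + m, a) ∈ R ∧ P.cov a p) ↔
        ∃ a, (i * P.M ^ j + m, a) ∈ R' ∧ P.cov a p := by
      refine exists_congr fun a => and_congr_left fun _ => ?_
      exact h _ a (by omega) (by rw [add_mul, one_mul]; omega)
    by_cases h2 : ∃ a, (i * P.M ^ j + m, a) ∈ R ∧ P.cov a p
    · rw [if_pos h2, if_pos (h1.1 h2)]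
    · rw [if_neg h2, if_neg (fun h3 => h2 (h1.2 h3))]
  exact le_antisymm
    (H140.best_mono hE _ _ u v (fun m hm p q _ => (key m hm p q).le))
    (H140.best_mono hE _ _ u v (fun m hm p q _ => (key m hm p q).ge))

theorem cval_le_vis {P : Par} (hE : ∃ p q, H140.Ed P p q) {vis hid : Leaf}
    (hle : HidLe P vis hid) (R : Finset (ℕ × ℕ)) (j i u v : ℕ) :
    cval P vis hid R j i u v ≤ best P vis (i * P.M ^ j) (P.M ^ j) u v :=
  H140.best_mono hE _ _ u v (fun _ _ p q hp => known_le_vis R (hle _ p q hp))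

theorem hid_le_cval {P : Par} (hE : ∃ p q, H140.Ed P p q) {vis hid : Leaf}
    (hle : HidLe P vis hid) (R : Finset (ℕ × ℕ)) (j i u v : ℕ) :
    best P hid (i * P.M ^ j) (P.M ^ j) u v ≤ cval P vis hid R j i u v :=
  H140.best_mono hE _ _ u v (fun _ _ p q hp => hid_le_known R (hle _ p q hp))

theorem cval_lip {P : Par} (hE : ∃ p q, H140.Ed P p q) (vis hid : Leaf)
    (R : Finset (ℕ × ℕ)) (j i u u' v v' : ℕ) :
    cval P vis hid R j i u v ≤
      P.sh * Nat.dist u u' + cval P vis hid R j i u' v' + P.sh * Nat.dist v' v := by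
  have h1 := H140.best_lip_left (f := known P vis hid R) hE (i * P.M ^ j) (P.M ^ j) u' u v
  have h2 := H140.best_lip_right (f := known P vis hid R) hE (i * P.M ^ j) (P.M ^ j) u' v' v
  unfold cval
  omega

theorem cval_ge_tru {P : Par} (hE : ∃ p q, H140.Ed P p q) {vis hid : Leaf}
    (hle : HidLe P vis hid) {tru : ℕ → ℕ → ℕ → ℕ → ℕ}
    (h0 : ∀ i u v, tru i i u v ≤ P.sh * Nat.dist u v)
    (htri : ∀ i j l u v w, i ≤ j → j ≤ l → tru i l u w ≤ tru i j u v + tru j l v w)
    (hrow : ∀ i p q, H140.Ed P p q → tru i (i + 1) p q ≤ hid i p q) (R : Finset (ℕ × ℕ))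
    (j i u v : ℕ) : tru (i * P.M ^ j) ((i + 1) * P.M ^ j) u v ≤ cval P vis hid R j i u v := by
  have h := H140.tru_le_best (f := known P vis hid R) hE tru h0 htri
    (fun i p q hp => (hrow i p q hp).trans (hid_le_known R (hle i p q hp)))
    (i * P.M ^ j) (P.M ^ j) u v
  rw [add_mul, one_mul]
  exact h

/-- **Subadditivity over `e` levels**: the slab `i` of level `j` consists of the slabs
`i * M ^ e + m` of level `j - e`. -/
theorem cval_le_rcost {P : Par} (hE : ∃ p q, H140.Ed P p q) (vis hid : Leaf)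
    (R : Finset (ℕ × ℕ)) {j e : ℕ} (he : e ≤ j) (i u v : ℕ) (r : ℕ → ℕ × ℕ) :
    cval P vis hid R j i u v ≤
      rcost P.sh (P.M ^ e) (fun m => cval P vis hid R (j - e) (i * P.M ^ e + m)) u v r := by
  have h := best_le_coarse hE (known P vis hid R) (i * P.M ^ j) (P.M ^ (j - e)) (P.M ^ e) u v r
  have h1 : P.M ^ e * P.M ^ (j - e) = P.M ^ j := by rw [← pow_add]; congr 1; omega
  rw [h1] at h
  refine h.trans (le_of_eq ?_)
  congr 1
  funext m p q
  unfold cval
  congr 1
  rw [add_mul, mul_assoc, h1]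

/-- The same with smaller read sets of the units. -/
theorem cval_le_units {P : Par} (hE : ∃ p q, H140.Ed P p q) {vis hid : Leaf}
    (hle : HidLe P vis hid) {j e : ℕ} (he : e ≤ j) (i : ℕ)
    (R : Finset (ℕ × ℕ)) (Ru : ℕ → Finset (ℕ × ℕ)) (hR : ∀ m < P.M ^ e, Ru m ⊆ R) (u v : ℕ)
    (r : ℕ → ℕ × ℕ) :
    cval P vis hid R j i u v ≤
      rcost P.sh (P.M ^ e) (fun m => cval P vis hid (Ru m) (j - e) (i * P.M ^ e + m)) u v r := by
  refine (cval_le_rcost hE vis hid R he i u v r).trans ?_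
  exact rcost_mono u v fun m hm => cval_anti hE hle (hR m hm) _ _ _ _

/-- The same along positions `z 0, …, z (M ^ e)`. -/
theorem cval_le_units_sum {P : Par} (hE : ∃ p q, H140.Ed P p q) {vis hid : Leaf}
    (hle : HidLe P vis hid) {j e : ℕ} (he : e ≤ j) (i : ℕ)
    (R : Finset (ℕ × ℕ)) (Ru : ℕ → Finset (ℕ × ℕ)) (hR : ∀ m < P.M ^ e, Ru m ⊆ R)
    (z : ℕ → ℕ) :
    cval P vis hid R j i (z 0) (z (P.M ^ e)) ≤
      ∑ m ∈ Finset.range (P.M ^ e),
        cval P vis hid (Ru m) (j - e) (i * P.M ^ e + m) (z m) (z (m + 1)) := by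
  refine (cval_le_units hE hle he i R Ru hR (z 0) (z (P.M ^ e))
    (fun m => (z m, z (m + 1)))).trans (le_of_eq ?_)
  exact rcost_path _ _ _ z

end Vale.Agent.P315.C
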