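import Vale.Agent.P315.C.Struct

/-!
P315, part C, row C-STR, second half: jitter sums `Xi`, read sets `rd`, certified costs `cR`
(abstract labels, `C/Alg.lean` v3).
-/

set_option autoImplicit false

namespace Vale.Agent.P315.C

/-! ### Sums of jitters -/

@[simp] theorem Xi_zero (P : Par) (ω : Rnd) (j m : ℕ) : Xi P ω j 0 m = 0 := by simp [Xi]

/-- The first step (jitter of the region itself) split off. -/
theorem Xi_succ (P : Par) (ω : Rnd) (j e m : ℕ) :
    Xi P ω j (e + 1) m = ω.xi j (m / P.M ^ e % P.M) + Xi P ω (j - 1) e m := by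
  unfold Xi
  rw [Finset.sum_range_succ', add_comm]
  congr 1
  refine Finset.sum_congr rfl fun x hx => ?_
  have h1 : j - (x + 1) = j - 1 - x := by omega
  have h2 : e + 1 - 1 - (x + 1) = e - 1 - x := by omega
  rw [h1, h2]

/-- The last step split off. -/
theorem Xi_succ_last (P : Par) (ω : Rnd) (j e m : ℕ) :
    Xi P ω j (e + 1) m = Xi P ω j e (m / P.M) + ω.xi (j - e) (m % P.M) := by
  unfold Xi
  rw [Finset.sum_range_succ]
  congr 1
  · refine Finset.sum_congr rfl fun x hx => ?_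
    have hx := Finset.mem_range.1 hx
    have h2 : e + 1 - 1 - x = e - 1 - x + 1 := by omega
    rw [h2, pow_succ', Nat.div_div_eq_div_mul]
  · have h3 : e + 1 - 1 - e = 0 := by omega
    rw [h3, pow_zero, Nat.div_one]

theorem Xi_one (P : Par) (ω : Rnd) (j m : ℕ) : Xi P ω j 1 m = ω.xi j (m % P.M) := by
  rw [Xi_succ_last, Xi_zero, Nat.zero_add, Nat.sub_zero]

/-- Two descents one after the other. -/
theorem Xi_add (P : Par) (ω : Rnd) (j e f m : ℕ) :
    Xi P ω j (e + f) m = Xi P ω j e (m / P.M ^ f) + Xi P ω (j - e) f m := by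
  induction f generalizing m with
  | zero => simp
  | succ f ih =>
    rw [← add_assoc, Xi_succ_last, ih, Xi_succ_last P ω (j - e) f m, Nat.div_div_eq_div_mul,
      ← pow_succ', add_assoc, Nat.sub_sub]

/-- Only the last `e` digits matter. -/
theorem Xi_mul_add {P : Par} (hM : 0 < P.M) (ω : Rnd) (j e a m : ℕ) :
    Xi P ω j e (a * P.M ^ e + m) = Xi P ω j e m := by
  unfold Xi
  refine Finset.sum_congr rfl fun x hx => ?_
  have hx := Finset.mem_range.1 hx
  have h1 : P.M ^ e = P.M ^ (e - 1 - x) * (P.M * P.M ^ x) := by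
    rw [← mul_assoc, ← pow_succ, ← pow_add]
    congr 1
    omega
  have h2 : a * P.M ^ e + m = m + P.M ^ (e - 1 - x) * (P.M * (P.M ^ x * a)) := by
    rw [h1]; ring
  rw [h2, Nat.add_mul_div_left _ _ (pow_pos hM _), Nat.add_mul_mod_self_left]

theorem Xi_mod {P : Par} (hM : 0 < P.M) (ω : Rnd) (j e m : ℕ) :
    Xi P ω j e (m % P.M ^ e) = Xi P ω j e m := by
  conv_rhs => rw [← Nat.div_add_mod' m (P.M ^ e)]
  rw [Xi_mul_add hM]

theorem Xi_le {P : Par} {ω : Rnd} (hJ : ∀ j m, ω.xi j m ≤ P.J) (j e m : ℕ) :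
    Xi P ω j e m ≤ e * P.J := by
  induction e generalizing m with
  | zero => simp
  | succ e ih =>
    rw [Xi_succ_last, add_mul, one_mul]
    exact add_le_add (ih _) (hJ _ _)

/-! ### Labels of descendants -/

theorem mem_desc_zero {P : Par} {j a x : ℕ} : x ∈ P.desc j 0 a ↔ x = a := by
  simp [Par.desc]

theorem mem_desc_succ {P : Par} {j e a x : ℕ} :
    x ∈ P.desc j (e + 1) a ↔ ∃ a' ∈ P.kids j a, x ∈ P.desc (j - 1) e a' := by
  simp [Par.desc]

theorem mem_desc_one {P : Par} {j a x : ℕ} : x ∈ P.desc j 1 a ↔ x ∈ P.kids j a := by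
  simp [mem_desc_succ, mem_desc_zero]

/-- The penalties are compatible with the descent: every descendant is reached along a chain of
children whose penalties add up to at most the penalty of the descendant. -/
def PenOK (P : Par) : Prop :=
  ∀ j e a x, x ∈ P.desc j (e + 1) a → ∃ a' ∈ P.kids j a, x ∈ P.desc (j - 1) e a' ∧
    P.pen j 1 a a' + P.pen (j - 1) e a' x ≤ P.pen j (e + 1) a x

theorem penOK_of_zero {P : Par} (h : ∀ j e a x, P.pen j e a x = 0) : PenOK P := by
  intro j e a x hx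
  obtain ⟨a', ha, hx'⟩ := mem_desc_succ.1 hx
  exact ⟨a', ha, hx', by simp [h]⟩

/-! ### Read sets -/

section
variable {P : Par} {mc : Mach} {ω : Rnd} {vis hid : Leaf}

theorem mem_stepRead {j : ℕ} {rd : ℕ → RSet} {i a : ℕ} {b : ℤ} {c : ℕ × ℕ} :
    c ∈ stepRead P mc ω vis hid j rd i a b ↔
      (∃ m < P.M, ∃ a' ∈ P.kids j a,
        c ∈ rd (j - 1) (i * P.M + m) a' (b - ω.xi j m - P.pen j 1 a a')) ∨
      (∃ s < P.S, 2 ^ s ∣ j ∧ ∃ q < mc.cnt s, ∃ κ : ℕ, (κ : ℤ) ≤ b + P.H ∧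
        ∃ m < P.M ^ 2 ^ s, c ∈ rd (j - 2 ^ s) (i * P.M ^ 2 ^ s + m)
          (laneOf P mc ω vis hid rd j i a s q κ m).1
          (uidx P ω j a s κ m (laneOf P mc ω vis hid rd j i a s q κ m).1 + 2 ^ s)) := by
  unfold stepRead
  simp only [Finset.mem_union, Finset.mem_biUnion, Finset.mem_range, Finset.mem_filter]
  constructor
  · rintro (⟨m, hm, a', h1, h3⟩ | ⟨s, ⟨hs, hs'⟩, q, hq, κ, hκ, m, hm, h3⟩)
    · exact Or.inl ⟨m, hm, a', h1, h3⟩
    · exact Or.inr ⟨s, hs, hs', q, hq, κ, by omega, m, hm, h3⟩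
  · rintro (⟨m, hm, a', h1, h3⟩ | ⟨s, hs, hs', q, hq, κ, hκ, m, hm, h3⟩)
    · exact Or.inl ⟨m, hm, a', h1, h3⟩
    · exact Or.inr ⟨s, ⟨hs, hs'⟩, q, hq, κ, by omega, m, hm, h3⟩

theorem mem_rd_succ {j i a : ℕ} {b : ℤ} {c : ℕ × ℕ} :
    c ∈ rd P mc ω vis hid (j + 1) i a b ↔
      (∃ m < P.M, ∃ a' ∈ P.kids (j + 1) a,
        c ∈ rd P mc ω vis hid j (i * P.M + m) a'
          (b - ω.xi (j + 1) m - P.pen (j + 1) 1 a a')) ∨
      (∃ s < P.S, 2 ^ s ∣ j + 1 ∧ ∃ q < mc.cnt s, ∃ κ : ℕ, (κ : ℤ) ≤ b + P.H ∧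
        ∃ m < P.M ^ 2 ^ s, c ∈ rd P mc ω vis hid (j + 1 - 2 ^ s) (i * P.M ^ 2 ^ s + m)
          (laneOf P mc ω vis hid (rd P mc ω vis hid) (j + 1) i a s q κ m).1
          (uidx P ω (j + 1) a s κ m
            (laneOf P mc ω vis hid (rd P mc ω vis hid) (j + 1) i a s q κ m).1 + 2 ^ s)) := by
  rw [rd_succ]
  exact mem_stepRead

theorem mem_rd_zero {i a : ℕ} {b : ℤ} {c : ℕ × ℕ} :
    c ∈ rd P mc ω vis hid 0 i a b ↔ 0 ≤ b ∧ c = (i, a) := by
  rw [rd_zero]
  split_ifs with h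
  · simp [h]
  · simp [not_lt.1 h]

/-- **Nestedness**: the read sets grow with the index. -/
theorem rd_mono {b b' : ℤ} (hb : b ≤ b') (j i a : ℕ) :
    rd P mc ω vis hid j i a b ⊆ rd P mc ω vis hid j i a b' := by
  induction j generalizing i a b b' with
  | zero =>
    intro c hc
    rw [mem_rd_zero] at hc ⊢
    exact ⟨hc.1.trans hb, hc.2⟩
  | succ j ih =>
    intro c hc
    rw [mem_rd_succ] at hc ⊢
    rcases hc with ⟨m, hm, a', h1, h3⟩ | ⟨s, hs, hs', q, hq, κ, hκ, m, hm, h3⟩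
    · exact Or.inl ⟨m, hm, a', h1, ih (by omega) _ _ h3⟩
    · exact Or.inr ⟨s, hs, hs', q, hq, κ, by omega, m, hm, h3⟩

/-- The read sets of the children. -/
theorem rd_child {j i a m a' : ℕ} (hm : m < P.M) (ha : a' ∈ P.kids (j + 1) a) (b : ℤ) :
    rd P mc ω vis hid j (i * P.M + m) a' (b - ω.xi (j + 1) m - P.pen (j + 1) 1 a a') ⊆
      rd P mc ω vis hid (j + 1) i a b := by
  intro c hc
  rw [mem_rd_succ]
  exact Or.inl ⟨m, hm, a', ha, hc⟩

/-- The read sets of the units on the lanes. -/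
theorem rd_lane {j i a s q κ m : ℕ} {b : ℤ} (hj : 0 < j) (hs : s < P.S) (hsj : 2 ^ s ∣ j)
    (hq : q < mc.cnt s) (hκ : (κ : ℤ) ≤ b + P.H) (hm : m < P.M ^ 2 ^ s) :
    rd P mc ω vis hid (j - 2 ^ s) (i * P.M ^ 2 ^ s + m)
      (laneOf P mc ω vis hid (rd P mc ω vis hid) j i a s q κ m).1
      (uidx P ω j a s κ m
        (laneOf P mc ω vis hid (rd P mc ω vis hid) j i a s q κ m).1 + 2 ^ s) ⊆
      rd P mc ω vis hid j i a b := by
  obtain ⟨j, rfl⟩ : ∃ j', j = j' + 1 := ⟨j - 1, by omega⟩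
  intro c hc
  rw [mem_rd_succ]
  exact Or.inr ⟨s, hs, hsj, q, hq, κ, hκ, m, hm, hc⟩

/-- **The chain lemma**: the read sets of the descendants `e` levels below. -/
theorem rd_desc (hM : 0 < P.M) (hpen : PenOK P) {e j i a m x : ℕ} (he : e ≤ j)
    (hm : m < P.M ^ e) (hx : x ∈ P.desc j e a) (b : ℤ) :
    rd P mc ω vis hid (j - e) (i * P.M ^ e + m) x (b - Xi P ω j e m - P.pen j e a x) ⊆
      rd P mc ω vis hid j i a b := by
  induction e generalizing j i a m x b with
  | zero =>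
    obtain rfl : m = 0 := by simpa using hm
    rw [mem_desc_zero] at hx
    subst hx
    rw [Xi_zero, pow_zero, mul_one, Nat.add_zero, Nat.sub_zero]
    exact rd_mono (by push_cast; omega) j i x
  | succ e ih =>
    obtain ⟨a', ha', hx', hp⟩ := hpen j e a x hx
    have hMe : 0 < P.M ^ e := pow_pos hM e
    have hd : m / P.M ^ e < P.M := by
      rw [Nat.div_lt_iff_lt_mul hMe, ← pow_succ']
      exact hm
    have h1 : i * P.M ^ (e + 1) + m = (i * P.M + m / P.M ^ e) * P.M ^ e + m % P.M ^ e := by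
      have := Nat.div_add_mod' m (P.M ^ e)
      rw [add_mul, mul_assoc, ← pow_succ', add_assoc, this]
    have h2 : j - (e + 1) = j - 1 - e := by omega
    have h3 := ih (j := j - 1) (i := i * P.M + m / P.M ^ e) (a := a') (m := m % P.M ^ e)
      (x := x) (by omega) (Nat.mod_lt _ hMe) hx' (b - ω.xi j (m / P.M ^ e) - P.pen j 1 a a')
    have h4 := rd_child (mc := mc) (ω := ω) (vis := vis) (hid := hid) (j := j - 1)
      (i := i) (a := a) (m := m / P.M ^ e) (a' := a') hd
      (by rwa [Nat.sub_add_cancel (by omega : 1 ≤ j)]) b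
    rw [Nat.sub_add_cancel (by omega : 1 ≤ j)] at h4
    rw [h1, h2]
    refine Finset.Subset.trans (Finset.Subset.trans (rd_mono ?_ _ _ _) h3) h4
    rw [Xi_mod hM, Xi_succ, Nat.mod_eq_of_lt hd]
    push_cast
    omega

/-- All read cells lie in the rows of the slab. -/
theorem rd_rows {j i a : ℕ} {b : ℤ} {c : ℕ × ℕ} (hc : c ∈ rd P mc ω vis hid j i a b) :
    i * P.M ^ j ≤ c.1 ∧ c.1 < (i + 1) * P.M ^ j := by
  induction j using Nat.strong_induction_on generalizing i a b with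
  | _ j ih =>
    have key : ∀ e m, e ≤ j → m < P.M ^ e →
        (i * P.M ^ e + m) * P.M ^ (j - e) ≤ c.1 →
        c.1 < (i * P.M ^ e + m + 1) * P.M ^ (j - e) →
        i * P.M ^ j ≤ c.1 ∧ c.1 < (i + 1) * P.M ^ j := by
      intro e m he hm h1 h2
      have h3 : P.M ^ j = P.M ^ e * P.M ^ (j - e) := by rw [← pow_add]; congr 1; omega
      constructor
      · refine le_trans ?_ h1
        rw [h3, ← mul_assoc]
        exact Nat.mul_le_mul_right _ (Nat.le_add_right _ _)
      · refine lt_of_lt_of_le h2 ?_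
        rw [h3, ← mul_assoc]
        refine Nat.mul_le_mul_right _ ?_
        rw [add_mul, one_mul]
        omega
    cases j with
    | zero =>
      rw [mem_rd_zero] at hc
      rw [hc.2]
      simp
    | succ j =>
      rw [mem_rd_succ] at hc
      rcases hc with ⟨m, hm, a', _, h3⟩ | ⟨s, hs, hs', q, hq, κ, hκ, m, hm, h3⟩
      · have := ih j (Nat.lt_succ_self j) h3
        exact key 1 m (by omega) (by simpa using hm) (by simpa using this.1)
          (by simpa using this.2)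
      · have h4 := Nat.le_of_dvd (Nat.succ_pos j) hs'
        have h5 : 0 < 2 ^ s := by positivity
        have := ih (j + 1 - 2 ^ s) (by omega) h3
        exact key (2 ^ s) m h4 hm this.1 this.2

/-- Nothing is read at the indices below `-j`. -/
theorem rd_empty {j : ℕ} {b : ℤ} (hb : b < -(j : ℤ)) (i a : ℕ) :
    rd P mc ω vis hid j i a b = ∅ := by
  rw [Finset.eq_empty_iff_forall_notMem]
  intro c hc
  induction j using Nat.strong_induction_on generalizing i a b with
  | _ j ih =>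
    cases j with
    | zero =>
      rw [mem_rd_zero] at hc
      simp at hb
      omega
    | succ j =>
      rw [mem_rd_succ] at hc
      rcases hc with ⟨m, hm, a', _, h3⟩ | ⟨s, hs, hs', q, hq, κ, hκ, m, hm, h3⟩
      · exact ih j (Nat.lt_succ_self j) (by push_cast at hb; omega) _ _ h3
      · have h4 := Nat.le_of_dvd (Nat.succ_pos j) hs'
        have h5 : 0 < 2 ^ s := by positivity
        refine ih (j + 1 - 2 ^ s) (by omega) ?_ _ _ h3
        have h6 : ((j + 1 - 2 ^ s : ℕ) : ℤ) = (j : ℤ) + 1 - 2 ^ s := by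
          rw [Nat.cast_sub h4]; push_cast; ring
        rw [h6]
        push_cast at hb
        unfold uidx
        have h7 : (0 : ℤ) ≤ Xi P ω (j + 1) (2 ^ s) m := by positivity
        have h8 : (0 : ℤ) ≤ P.pen (j + 1) (2 ^ s) a
          (laneOf P mc ω vis hid (rd P mc ω vis hid) (j + 1) i a s q κ m).1 := by positivity
        linarith

/-- A cell below is read as soon as its own index is `≥ 0`. -/
theorem rd_leaf (hM : 0 < P.M) (hpen : PenOK P) {j i a m x : ℕ} {b : ℤ}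
    (hm : m < P.M ^ j) (hx : x ∈ P.desc j j a)
    (hb : (Xi P ω j j m : ℤ) + P.pen j j a x ≤ b) :
    (i * P.M ^ j + m, x) ∈ rd P mc ω vis hid j i a b := by
  have h := rd_desc (mc := mc) (ω := ω) (vis := vis) (hid := hid) hM hpen (e := j) (j := j)
    (i := i) (a := a) le_rfl hm hx b
  refine h ?_
  rw [Nat.sub_self, mem_rd_zero]
  exact ⟨by omega, rfl⟩

/-- **Full read**: at the indices `≥ j * J + pen` all cells below are read. -/
theorem rd_full (hM : 0 < P.M) (hpen : PenOK P) (hJ : ∀ j m, ω.xi j m ≤ P.J) {j i a τ x : ℕ}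
    {b : ℤ} (hτ : i * P.M ^ j ≤ τ) (hτ' : τ < (i + 1) * P.M ^ j) (hx : x ∈ P.desc j j a)
    (hb : ((j * P.J + P.pen j j a x : ℕ) : ℤ) ≤ b) :
    (τ, x) ∈ rd P mc ω vis hid j i a b := by
  have h3 : τ = i * P.M ^ j + (τ - i * P.M ^ j) := by omega
  have h4 : τ - i * P.M ^ j < P.M ^ j := by rw [add_mul, one_mul] at hτ'; omega
  rw [h3]
  refine rd_leaf hM hpen h4 hx ?_
  have := Xi_le hJ j j (τ - i * P.M ^ j)
  push_cast at hb
  have h5 : (Xi P ω j j (τ - i * P.M ^ j) : ℤ) ≤ j * P.J := by exact_mod_cast this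
  omega

/-! ### Certified costs -/

/-- **Antitone in the index.** -/
theorem cR_anti (hE : ∃ p q, H140.Ed P p q) (hle : HidLe P vis hid) {b b' : ℤ} (hb : b ≤ b')
    (j i a u v : ℕ) :
    cR P mc ω vis hid j i a b' u v ≤ cR P mc ω vis hid j i a b u v :=
  cval_anti hE hle (rd_mono hb j i a) j i u v

theorem cR_le_vis (hE : ∃ p q, H140.Ed P p q) (hle : HidLe P vis hid) (j i a : ℕ) (b : ℤ)
    (u v : ℕ) :
    cR P mc ω vis hid j i a b u v ≤ best P vis (i * P.M ^ j) (P.M ^ j) u v :=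
  cval_le_vis hE hle _ j i u v

theorem hid_le_cR (hE : ∃ p q, H140.Ed P p q) (hle : HidLe P vis hid) (j i a : ℕ) (b : ℤ)
    (u v : ℕ) :
    best P hid (i * P.M ^ j) (P.M ^ j) u v ≤ cR P mc ω vis hid j i a b u v :=
  hid_le_cval hE hle _ j i u v

theorem cR_lip (hE : ∃ p q, H140.Ed P p q) (j i a : ℕ) (b : ℤ) (u u' v v' : ℕ) :
    cR P mc ω vis hid j i a b u v ≤
      P.sh * Nat.dist u u' + cR P mc ω vis hid j i a b u' v' + P.sh * Nat.dist v' v :=
  cval_lip hE vis hid _ j i u u' v v'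

theorem cR_ge_tru (hE : ∃ p q, H140.Ed P p q) (hle : HidLe P vis hid)
    {tru : ℕ → ℕ → ℕ → ℕ → ℕ} (h0 : ∀ i u v, tru i i u v ≤ P.sh * Nat.dist u v)
    (htri : ∀ i j l u v w, i ≤ j → j ≤ l → tru i l u w ≤ tru i j u v + tru j l v w)
    (hrow : ∀ i p q, H140.Ed P p q → tru i (i + 1) p q ≤ hid i p q)
    (j i a : ℕ) (b : ℤ) (u v : ℕ) :
    tru (i * P.M ^ j) ((i + 1) * P.M ^ j) u v ≤ cR P mc ω vis hid j i a b u v :=
  cval_ge_tru hE hle h0 htri hrow _ j i u v

/-- The history consists of the certified costs of the units. -/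
theorem hist_eq (j i a s κ m x u v : ℕ) :
    hist P ω vis hid (rd P mc ω vis hid) j i a s κ m x u v =
      cR P mc ω vis hid (j - 2 ^ s) (i * P.M ^ 2 ^ s + m) x (uidx P ω j a s κ m x) u v := rfl

theorem uidx_add (j a s κ d m x : ℕ) :
    uidx P ω j a s (κ + d) m x = uidx P ω j a s κ m x + d := by
  unfold uidx
  push_cast
  ring

theorem hist_anti (hE : ∃ p q, H140.Ed P p q) (hle : HidLe P vis hid) {κ κ' : ℕ}
    (h : κ ≤ κ') (j i a s m x u v : ℕ) :
    hist P ω vis hid (rd P mc ω vis hid) j i a s κ' m x u v ≤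
      hist P ω vis hid (rd P mc ω vis hid) j i a s κ m x u v := by
  rw [hist_eq, hist_eq]
  refine cR_anti hE hle ?_ _ _ _ _ _
  unfold uidx
  omega

/-- **(H1), exact, over `e` levels**: for every choice of descendant labels and every coarse
route (nothing is assumed about its positions). -/
theorem cR_H1_route (hM : 0 < P.M) (hpen : PenOK P) (hE : ∃ p q, H140.Ed P p q)
    (hle : HidLe P vis hid) {j e i a : ℕ} (he : e ≤ j) (b : ℤ) (x : ℕ → ℕ)
    (hx : ∀ m < P.M ^ e, x m ∈ P.desc j e a) (u v : ℕ) (r : ℕ → ℕ × ℕ) :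
    cR P mc ω vis hid j i a b u v ≤
      rcost P.sh (P.M ^ e) (fun m => cR P mc ω vis hid (j - e) (i * P.M ^ e + m) (x m)
        (b - Xi P ω j e m - P.pen j e a (x m))) u v r :=
  cval_le_units hE hle he i _ (fun m => rd P mc ω vis hid (j - e) (i * P.M ^ e + m) (x m)
    (b - Xi P ω j e m - P.pen j e a (x m)))
    (fun m hm => rd_desc hM hpen he hm (hx m hm) b) u v r

/-- (H1) over `e` levels along the positions `z 0, …, z (M ^ e)`. -/
theorem cR_H1_pow (hM : 0 < P.M) (hpen : PenOK P) (hE : ∃ p q, H140.Ed P p q)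
    (hle : HidLe P vis hid) {j e i a : ℕ} (he : e ≤ j) (b : ℤ) (x z : ℕ → ℕ)
    (hx : ∀ m < P.M ^ e, x m ∈ P.desc j e a) :
    cR P mc ω vis hid j i a b (z 0) (z (P.M ^ e)) ≤
      ∑ m ∈ Finset.range (P.M ^ e), cR P mc ω vis hid (j - e) (i * P.M ^ e + m) (x m)
        (b - Xi P ω j e m - P.pen j e a (x m)) (z m) (z (m + 1)) :=
  (cR_H1_route hM hpen hE hle he b x hx (z 0) (z (P.M ^ e))
    (fun m => (z m, z (m + 1)))).trans (le_of_eq (rcost_path _ _ _ z))

/-- **(H1), exact**: one level. -/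
theorem cR_H1 (hE : ∃ p q, H140.Ed P p q) (hle : HidLe P vis hid) {j i a : ℕ} (b : ℤ)
    (x z : ℕ → ℕ) (hx : ∀ m < P.M, x m ∈ P.kids (j + 1) a) :
    cR P mc ω vis hid (j + 1) i a b (z 0) (z P.M) ≤
      ∑ m ∈ Finset.range P.M, cR P mc ω vis hid j (i * P.M + m) (x m)
        (b - ω.xi (j + 1) m - P.pen (j + 1) 1 a (x m)) (z m) (z (m + 1)) := by
  have h := cval_le_units_sum hE hle (j := j + 1) (e := 1) (by omega) i
    (rd P mc ω vis hid (j + 1) i a b)
    (fun m => rd P mc ω vis hid j (i * P.M + m) (x m)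
      (b - ω.xi (j + 1) m - P.pen (j + 1) 1 a (x m))) (fun m hm => ?_) z
  · simp only [pow_one, Nat.add_sub_cancel] at h
    exact h
  · rw [pow_one] at hm
    exact rd_child hm (hx m hm) b

/-- **The lanes**: the certified cost is below the value of every lane of a round `κ ≤ b + H`,
with the unit costs `2 ^ s` indices ahead. -/
theorem cR_le_lane (hE : ∃ p q, H140.Ed P p q) (hle : HidLe P vis hid) {j i a s q κ : ℕ}
    {b : ℤ} (hj : 0 < j) (hs : s < P.S) (hsj : 2 ^ s ∣ j) (hq : q < mc.cnt s)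
    (hκ : (κ : ℤ) ≤ b + P.H) (u v : ℕ) :
    cR P mc ω vis hid j i a b u v ≤
      rcost P.sh (P.M ^ 2 ^ s)
        (fun m => hist P ω vis hid (rd P mc ω vis hid) j i a s (κ + 2 ^ s) m
          (laneOf P mc ω vis hid (rd P mc ω vis hid) j i a s q κ m).1) u v
        (fun m => (laneOf P mc ω vis hid (rd P mc ω vis hid) j i a s q κ m).2) := by
  have h4 := Nat.le_of_dvd hj hsj
  refine (cval_le_units hE hle h4 i _ (fun m => rd P mc ω vis hid (j - 2 ^ s)
    (i * P.M ^ 2 ^ s + m)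
    (laneOf P mc ω vis hid (rd P mc ω vis hid) j i a s q κ m).1
    (uidx P ω j a s κ m
      (laneOf P mc ω vis hid (rd P mc ω vis hid) j i a s q κ m).1 + 2 ^ s)) ?_ u v
    (fun m => (laneOf P mc ω vis hid (rd P mc ω vis hid) j i a s q κ m).2)).trans (le_of_eq ?_)
  · intro m hm
    exact rd_lane hj hs hsj hq hκ hm
  · refine rcost_congr (fun _ _ => rfl) (fun m _ => ?_)
    rw [hist_eq, uidx_add]
    unfold cR
    push_cast
    rfl

/-- Leaves with index `≥ 0`. -/
theorem cR_zero_le_hid {i a u v : ℕ} {b : ℤ} (hb : 0 ≤ b) (hc : P.cov a u)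
    (h : H140.Ed P u v) : cR P mc ω vis hid 0 i a b u v ≤ hid i u v := by
  unfold cR cval
  rw [pow_zero, mul_one]
  refine (best_one_le' _ i h).trans (le_of_eq ?_)
  exact known_of_mem (mem_rd_zero.2 ⟨hb, rfl⟩) hc

theorem cR_zero_le_vis (hle : HidLe P vis hid) {i a u v : ℕ} (b : ℤ)
    (h : H140.Ed P u v) : cR P mc ω vis hid 0 i a b u v ≤ vis i u v := by
  unfold cR cval
  rw [pow_zero, mul_one]
  exact (best_one_le' _ i h).trans (known_le_vis _ (hle i u v h))

/-- Full read: along every admissible route with covering labels below the region, the certified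
cost is below the hidden cost. -/
theorem cR_le_hid_of_full (hM : 0 < P.M) (hpen : PenOK P) (hJ : ∀ j m, ω.xi j m ≤ P.J)
    {j i a : ℕ} {b : ℤ} {r : ℕ → ℕ × ℕ} (hr : P.RouteOK (P.M ^ j) r) (x : ℕ → ℕ)
    (hx : ∀ m < P.M ^ j, x m ∈ P.desc j j a ∧ P.cov (x m) (r m).1 ∧
      ((j * P.J + P.pen j j a (x m) : ℕ) : ℤ) ≤ b) (u v : ℕ) :
    cR P mc ω vis hid j i a b u v ≤
      rcost P.sh (P.M ^ j) (fun m => hid (i * P.M ^ j + m)) u v r := by
  refine (H140.best_le_rcost _ _ u v r hr).trans (le_of_eq (rcost_congr (fun _ _ => rfl) ?_))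
  intro m hm
  obtain ⟨h1, h2, h3⟩ := hx m hm
  refine known_of_mem ?_ h2
  exact rd_full hM hpen hJ (Nat.le_add_right _ _) (by rw [add_mul, one_mul]; omega) h1 h3

end

/-! ### The additive geometry -/

section box
variable {M ℓ μ B J S H : ℕ}

theorem box_penOK : PenOK (boxPar M ℓ μ B J S H) := penOK_of_zero fun _ _ _ _ => rfl

/-- Labels which can be reached by a path that enters in the interval `a`. -/
theorem box_mem_desc (hM : 0 < M) {e j a x : ℕ} (he : e ≠ 0) (h1 : a * M ^ e ≤ x)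
    (h2 : x < (a + 2) * M ^ e) : x ∈ (boxPar M ℓ μ B J S H).desc j e a := by
  induction e generalizing j a x with
  | zero => exact absurd rfl he
  | succ e ih =>
    rw [mem_desc_succ]
    have hMe : 0 < M ^ e := pow_pos hM e
    rcases Nat.eq_zero_or_pos e with he0 | he0
    · subst he0
      refine ⟨x, ?_, mem_desc_zero.2 rfl⟩
      show x ∈ Finset.Ico (a * M) ((a + 2) * M)
      rw [Finset.mem_Ico]
      simp only [Nat.zero_add, pow_one] at h1 h2
      exact ⟨h1, h2⟩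
    · refine ⟨x / M ^ e, ?_, ih (by omega) (Nat.div_mul_le_self x _) ?_⟩
      · show x / M ^ e ∈ Finset.Ico (a * M) ((a + 2) * M)
        rw [Finset.mem_Ico]
        constructor
        · rw [Nat.le_div_iff_mul_le hMe, mul_assoc, ← pow_succ']
          exact h1
        · rw [Nat.div_lt_iff_lt_mul hMe, mul_assoc, ← pow_succ']
          exact h2
      · have h3 := Nat.lt_div_mul_add (a := x) hMe
        rw [add_mul]
        omega

/-- The label of a position `z` in the unit row, for a path entering the region at `u`. -/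
theorem box_label_mem (hM : 0 < M) (hℓ : 0 < ℓ) {e j u z : ℕ} (he : e ≠ 0) (hej : e ≤ j)
    (h1 : u ≤ z) (h2 : z ≤ u + (boxPar M ℓ μ B J S H).T j) :
    z / (boxPar M ℓ μ B J S H).T (j - e) ∈
      (boxPar M ℓ μ B J S H).desc j e (u / (boxPar M ℓ μ B J S H).T j) := by
  have hT : (boxPar M ℓ μ B J S H).T j = (boxPar M ℓ μ B J S H).T (j - e) * M ^ e := by
    show ℓ * M ^ j = ℓ * M ^ (j - e) * M ^ e
    rw [mul_assoc, ← pow_add, Nat.sub_add_cancel hej]
  have hTp : 0 < (boxPar M ℓ μ B J S H).T (j - e) := Nat.mul_pos hℓ (pow_pos hM _)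
  have hTj : 0 < (boxPar M ℓ μ B J S H).T j := Nat.mul_pos hℓ (pow_pos hM _)
  refine box_mem_desc hM he ?_ ?_
  · rw [Nat.le_div_iff_mul_le hTp, mul_assoc, mul_comm (M ^ e), ← hT]
    exact (Nat.div_mul_le_self _ _).trans h1
  · rw [Nat.div_lt_iff_lt_mul hTp, mul_assoc, mul_comm (M ^ e), ← hT]
    have h3 := Nat.lt_div_mul_add (a := u) hTj
    rw [add_mul]
    omega

end box

end Vale.Agent.P315.C
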